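import Vale.Agent.Lib.P154Neg.A4.Main
import Vale.Agent.Lib.P154R.Dary

/-!
# Regular trees with at least sixteen children and a negative eigenvalue
-/

open Filter Topology

namespace Vale.Agent.Lib.P154Neg.A4

/-- **Nonreconstruction on the `d`-ary tree for `d ≥ 16`** and a negative eigenvalue with `d lam ^ 2 ≤ 1`. -/
theorem tendsto_dary {d : ℕ} {lam : ℝ} (h16 : 16 ≤ d) (hl : lam < 0) (hd : (d : ℝ) * lam ^ 2 ≤ 1) :
    Tendsto (Vale.Agent.Lib.P154.reconDist 3 d lam) atTop (𝓝 0) := by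
  obtain ⟨k₀, rfl⟩ : ∃ k₀, d = k₀ + 2 := ⟨d - 2, by omega⟩
  have h16' : (16 : ℝ) ≤ ((k₀ + 2 : ℕ) : ℝ) := by exact_mod_cast h16
  refine (Vale.Agent.Lib.P154R.tendsto_dirac_iff (k₀ + 2) 3 lam).1
    (tendsto (Vale.Agent.Lib.P154Q.dirac_nonneg (k₀ + 2)) (Vale.Agent.Lib.P154Q.dirac_hasSum (k₀ + 2))
      (Vale.Agent.Lib.P154Q.dirac_mean (k₀ + 2)) k₀ (Vale.Agent.Lib.P154Q.dirac_pos k₀) ?_ hl.le hd)
  norm_num
  by_contra hc
  push Not at hc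
  have h2 : (1 / 16 : ℝ) < lam ^ 2 := by nlinarith
  nlinarith [sq_nonneg lam]

end Vale.Agent.Lib.P154Neg.A4
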