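import Vale.Agent.Lib.P154Neg.RayL

/-!
# Data of a stationary potential for a negative eigenvalue of absolute value at most `1/4`
-/

namespace Vale.Agent.Lib.P154Neg.A4

open Vale.Agent.Lib.P154 Vale.Agent.Lib.P154GW Vale.Agent.Lib.P154K Tp

/-- The terms of the potential. -/
def Lq : List (ℕ × ℕ × ℤ) := [(1, 0, 16384), (2, 0, 2507), (1, 1, -39294), (3, 0, -24603), (0, 2, 320988), (2, 1, 228755), (4, 0, 201267), (1, 2, -1898509), (3, 1, -2137141), (0, 3, 6516666), (5, 0, -70331), (2, 2, 5754647), (4, 1, 3677159), (1, 3, -28074620), (6, 0, -383342), (3, 2, -4509653), (0, 4, 38749517)]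

/-- The terms of the right side. -/
def Rq : List (ℕ × ℕ × ℕ × ℕ × ℤ) :=
  [(1, 0, 0, 0, 16384), (0, 0, 1, 0, 16384), (2, 0, 0, 0, 2507), (0, 0, 2, 0, 40112), (1, 1, 0, 0, -39294), (0, 0, 1, 1, 2514816), (3, 0, 0, 0, -24603), (0, 0, 3, 0, -6298368), (0, 2, 0, 0, 320988), (0, 0, 0, 2, 82172928), (2, 1, 0, 0, 228755), (0, 0, 2, 1, -234245120), (4, 0, 0, 0, 201267), (0, 0, 4, 0, 824389632), (1, 2, 0, 0, -1898509), (0, 0, 1, 2, -7776292864), (3, 1, 0, 0, -2137141), (0, 0, 3, 1, 35014918144), (0, 3, 0, 0, 6516666), (0, 0, 0, 3, -106769055744), (5, 0, 0, 0, -70331), (0, 0, 5, 0, -4609212416), (2, 2, 0, 0, 5754647), (0, 0, 2, 2, 377136545792), (4, 1, 0, 0, 3677159), (0, 0, 4, 1, -963945168896), (1, 3, 0, 0, -28074620), (0, 0, 1, 3, 7359593185280), (6, 0, 0, 0, -383342), (0, 0, 6, 0, -401963220992), (3, 2, 0, 0, -4509653), (0, 0, 3, 2, -4728713904128), (0, 4, 0, 0, 38749517), (0, 0, 0, 4, 40631813537792),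 (1, 0, 1, 0, -154)]

/-- A constant minus the potential. -/
def Lc : List (ℕ × ℕ × ℤ) := [(0, 0, 16384), (1, 0, -16384), (2, 0, -2507), (1, 1, 39294), (3, 0, 24603), (0, 2, -320988), (2, 1, -228755), (4, 0, -201267), (1, 2, 1898509), (3, 1, 2137141), (0, 3, -6516666), (5, 0, 70331), (2, 2, -5754647), (4, 1, -3677159), (1, 3, 28074620), (6, 0, 383342), (3, 2, 4509653), (0, 4, -38749517)]

lemma hLne : Lq ≠ [] := by simp [Lq]
lemma hRne : Rq ≠ [] := by simp [Rq]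

lemma hLq : ∀ t ∈ Lq, 2 * t.1 + 3 * t.2.1 ≤ 12 - 1 + 1 := by
  intro t ht
  simp only [Lq, List.mem_cons, List.not_mem_nil, or_false] at ht
  repeat' (rcases ht with rfl | ht)
  all_goals norm_num

lemma hRq0 : ∀ t ∈ Rq, 2 * t.1 + 3 * t.2.1 ≤ 12 ∧ 2 * t.2.2.1 + 3 * t.2.2.2.1 ≤ 12 := by
  intro t ht
  simp only [Rq, List.mem_cons, List.not_mem_nil, or_false] at ht
  repeat' (rcases ht with rfl | ht)
  all_goals norm_num

lemma hRqg (g : ℕ) : ∀ t ∈ Rq, 2 * t.1 + 3 * t.2.1 ≤ 12 + g ∧ 2 * t.2.2.1 + 3 * t.2.2.2.1 ≤ 12 + g := by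
  intro t ht
  have := hRq0 t ht
  omega
lemma hLq2 : ∀ t ∈ Lq, 2 * t.1 + 3 * t.2.1 ≤ 12 := by
  intro t ht
  simp only [Lq, List.mem_cons, List.not_mem_nil, or_false] at ht
  repeat' (rcases ht with rfl | ht)
  all_goals norm_num

lemma hLq3 : ∀ t ∈ Lq, 2 * t.1 + 3 * t.2.1 - 2 ≤ 10 := by
  intro t ht
  simp only [Lq, List.mem_cons, List.not_mem_nil, or_false] at ht
  repeat' (rcases ht with rfl | ht)
  all_goals norm_num

lemma hLq4 : ∀ t ∈ Lq, 2 ≤ 2 * t.1 + 3 * t.2.1 := by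
  intro t ht
  simp only [Lq, List.mem_cons, List.not_mem_nil, or_false] at ht
  repeat' (rcases ht with rfl | ht)
  all_goals norm_num

lemma hLc : ∀ t ∈ Lc, 2 * t.1 + 3 * t.2.1 ≤ 12 := by
  intro t ht
  simp only [Lc, List.mem_cons, List.not_mem_nil, or_false] at ht
  repeat' (rcases ht with rfl | ht)
  all_goals norm_num


end Vale.Agent.Lib.P154Neg.A4
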