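import Vale.Agent.Lib.P154Neg.A4.RayAll

/-!
# Pieces of the merge inequality
-/

namespace Vale.Agent.Lib.P154Neg.A4

open Vale.Agent.Lib.P154 Vale.Agent.Lib.P154GW Vale.Agent.Lib.P154K Tp

theorem c0 : leafOK 283 29 371 (⟨1, 1, -2, 5, -1, -4, 0, 0, 0, 12⟩ : Trg) (⟨-1, -1, 2, -5, 1, 4, 0, 0, 0, 48⟩ : Trg) Lq 12 6 67108864 Rq
    ⟨[(0, 2125818053940), (1, -12624187730838), (2, 31415446219900), (3, -41891119137400), (4, 31544416667340), (5, -12710089620842), (6, 2139782656764)], 12800, 16384, 16385, 16384, 16, 1⟩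
    ⟨[(0, 581507978363), (1, -3091132458495), (2, 6892379614152), (3, -8242716443703), (4, 5571703500715), (5, -2017020853944), (6, 305345771776)], 16128, 16384, 18176, 16384, 1, 8⟩
    ⟨[(0, 581507978363), (1, -3091132458495), (2, 6892379614152), (3, -8242716443703), (4, 5571703500715), (5, -2017020853944), (6, 305345771776)], 16128, 16384, 18176, 16384, 1, 8⟩ = true := by
  decide +kernel

theorem l0 : HoldsOn Lq Rq (Trg.left (Trg.left (chamber 1 1))) (Trg.left (Trg.left (chamberN 1 4))) :=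
  HoldsOn.congrT (by decide +kernel) (by decide +kernel)
    (holdsOn_of_leafOK hLne hRne (by norm_num) (by norm_num) hLq (hRqg 6) hNn c0)

theorem c1 : leafOK 285 29 371 (⟨1, 1, -2, 5, -1, -4, 0, 0, 0, 12⟩ : Trg) (⟨-1, -1, 2, -2, -2, 4, -5, 1, 4, 48⟩ : Trg) Lq 12 6 67108864 Rq
    ⟨[(0, 2125818053940), (1, -12624187730838), (2, 31415446219900), (3, -41891119137400), (4, 31544416667340), (5, -12710089620842), (6, 2139782656764)], 12800, 16384, 16385, 16384, 16, 1⟩
    ⟨[(0, 615465000139), (1, -3287803455620), (2, 7366837265661), (3, -8852968522096), (4, 6013068499488), (5, -2187212367378), (6, 332680688670)], 15872, 16384, 18176, 16384, 1, 8⟩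
    ⟨[(0, 491117203060), (1, -2566949805037), (2, 5626304531778), (3, -6612434531617), (4, 4391343817649), (5, -1561415510046), (6, 232101403077)], 16128, 16384, 18944, 16384, 1, 4⟩ = true := by
  decide +kernel

theorem l1 : HoldsOn Lq Rq (Trg.left (Trg.left (chamber 1 1))) (Trg.right (Trg.left (chamberN 1 4))) :=
  HoldsOn.congrT (by decide +kernel) (by decide +kernel)
    (holdsOn_of_leafOK hLne hRne (by norm_num) (by norm_num) hLq (hRqg 6) hNn c1)

end Vale.Agent.Lib.P154Neg.A4
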