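import Vale.Agent.Lib.P154Neg.A4.RayAll

/-!
# Pieces of the merge inequality
-/

namespace Vale.Agent.Lib.P154Neg.A4

open Vale.Agent.Lib.P154 Vale.Agent.Lib.P154GW Vale.Agent.Lib.P154K Tp

theorem c2 : leafOK 287 29 371 (⟨1, 1, -2, 2, 2, -4, 5, -1, -4, 12⟩ : Trg) (⟨-1, -1, 2, -5, 1, 4, 0, 0, 0, 48⟩ : Trg) Lq 12 6 67108864 Rq
    ⟨[(0, 2125818053940), (1, -12624187730838), (2, 31415446219900), (3, -41891119137400), (4, 31544416667340), (5, -12710089620842), (6, 2139782656764)], 12800, 16384, 16385, 16384, 16, 1⟩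
    ⟨[(0, 491117203060), (1, -2566949805037), (2, 5626304531778), (3, -6612434531617), (4, 4391343817649), (5, -1561415510046), (6, 232101403077)], 16128, 16384, 18944, 16384, 1, 4⟩
    ⟨[(0, 615465000139), (1, -3287803455620), (2, 7366837265661), (3, -8852968522096), (4, 6013068499488), (5, -2187212367378), (6, 332680688670)], 15872, 16384, 18176, 16384, 1, 8⟩ = true := by
  decide +kernel

theorem l2 : HoldsOn Lq Rq (Trg.right (Trg.left (chamber 1 1))) (Trg.left (Trg.left (chamberN 1 4))) :=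
  HoldsOn.congrT (by decide +kernel) (by decide +kernel)
    (holdsOn_of_leafOK hLne hRne (by norm_num) (by norm_num) hLq (hRqg 6) hNn c2)

theorem c3 : leafOK 274 29 334 (⟨1, 1, -2, 2, 2, -4, 5, -1, -4, 12⟩ : Trg) (⟨-1, -1, 2, -2, -2, 4, -5, 1, 4, 48⟩ : Trg) Lq 12 5 67108864 Rq
    ⟨[(0, 1296800706051), (1, -6756525216848), (2, 14163453563983), (3, -14916809245054), (4, 7886648424692), (5, -1673504212225)], 12800, 14336, 15872, 16384, 8, 8⟩
    ⟨[(0, 152323435517), (1, -654716826257), (2, 1132640498851), (3, -984794272103), (4, 429991659326), (5, -75377376606)], 15872, 17408, 18944, 16384, 2, 2⟩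
    ⟨[(0, 152323435517), (1, -654716826257), (2, 1132640498851), (3, -984794272103), (4, 429991659326), (5, -75377376606)], 15872, 17408, 18944, 16384, 2, 2⟩ = true := by
  decide +kernel

theorem l3 : HoldsOn Lq Rq (Trg.right (Trg.left (chamber 1 1))) (Trg.right (Trg.left (chamberN 1 4))) :=
  HoldsOn.congrT (by decide +kernel) (by decide +kernel)
    (holdsOn_of_leafOK hLne hRne (by norm_num) (by norm_num) hLq (hRqg 5) hNn c3)

end Vale.Agent.Lib.P154Neg.A4
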