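import Vale.Agent.Lib.P154Neg.A4.RayAll

/-!
# Pieces of the merge inequality
-/

namespace Vale.Agent.Lib.P154Neg.A4

open Vale.Agent.Lib.P154 Vale.Agent.Lib.P154GW Vale.Agent.Lib.P154K Tp

theorem c20 : leafOK 314 30 373 (⟨4, -2, -2, 5, -1, -4, 8, -4, -4, 12⟩ : Trg) (⟨-5, 1, 4, -2, -2, 4, -10, 2, 8, 96⟩ : Trg) Lq 12 6 67108864 Rq
    ⟨[(0, 7018660145407), (1, -46173012476880), (2, 127149473261736), (3, -187417510658928), (4, 155833031725479), (5, -69257871718952), (6, 12847306704341)], 11264, 13568, 15872, 16384, 16, 16⟩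
    ⟨[(0, 653111024016), (1, -3502022285992), (2, 7874298967636), (3, -9493533796000), (4, 6467490331139), (5, -2358989035941), (6, 359711904909)], 15360, 16768, 18176, 16384, 2, 4⟩
    ⟨[(0, 177163696484), (1, -843660192380), (2, 1684677553113), (3, -1803783324132), (4, 1091287576955), (5, -353485596621), (6, 47867247230)], 17280, 18880, 20480, 16384, 2, 2⟩ = true := by
  decide +kernel

theorem l20 : HoldsOn Lq Rq (Trg.left (Trg.right (chamber 1 1))) (Trg.left (Trg.left (Trg.left (chamberN 1 4)))) :=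
  HoldsOn.congrT (by decide +kernel) (by decide +kernel)
    (holdsOn_of_leafOK hLne hRne (by norm_num) (by norm_num) hLq (hRqg 6) hNn c20)

theorem c21 : leafOK 292 30 333 (⟨4, -2, -2, 5, -1, -4, 8, -4, -4, 12⟩ : Trg) (⟨-5, 1, 4, 0, 0, 0, -2, -2, 4, 96⟩ : Trg) Lq 12 5 67108864 Rq
    ⟨[(0, 538842666435), (1, -2597139429515), (2, 5038466695172), (3, -4912936955033), (4, 2405891952259), (5, -473057820454)], 13824, 16384, 16385, 16384, 8, 1⟩
    ⟨[(0, 300323766617), (1, -1377523712797), (2, 2544451115116), (3, -2363395617735), (4, 1102987650049), (5, -206776092386)], 15360, 16384, 17280, 16384, 1, 1⟩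
    ⟨[(0, 189161255955), (1, -831163252119), (2, 1470438954343), (3, -1307896796481), (4, 584397200458), (5, -104870253292)], 16383, 16384, 18432, 16384, 1, 2⟩ = true := by
  decide +kernel

theorem l21 : HoldsOn Lq Rq (Trg.left (Trg.right (chamber 1 1))) (Trg.right (Trg.left (Trg.left (chamberN 1 4)))) :=
  HoldsOn.congrT (by decide +kernel) (by decide +kernel)
    (holdsOn_of_leafOK hLne hRne (by norm_num) (by norm_num) hLq (hRqg 5) hNn c21)

end Vale.Agent.Lib.P154Neg.A4
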