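import Vale.Agent.Lib.P154Neg.A4.RayAll

/-!
# Pieces of the merge inequality
-/

namespace Vale.Agent.Lib.P154Neg.A4

open Vale.Agent.Lib.P154 Vale.Agent.Lib.P154GW Vale.Agent.Lib.P154K Tp

theorem c22 : leafOK 319 30 373 (⟨13, -5, -8, 8, -4, -4, 10, -2, -8, 24⟩ : Trg) (⟨-4, 2, 2, -5, 1, 4, -8, 4, 4, 48⟩ : Trg) Lq 12 6 67108864 Rq
    ⟨[(0, 26767076873224), (1, -198020864538246), (2, 612836123333203), (3, -1014583253280269), (4, 946967835861863), (5, -472175314516924), (6, 98214280695048)], 9728, 12032, 14336, 16384, 16, 16⟩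
    ⟨[(0, 199068068155), (1, -957088338109), (2, 1929242160465), (3, -2084818919443), (4, 1272818312274), (5, -415979665253), (6, 56825428392)], 16896, 18688, 20480, 16384, 2, 2⟩
    ⟨[(0, 278213679198), (1, -1382221691107), (2, 2880245058046), (3, -3218807619263), (4, 2033024958820), (5, -687641710387), (6, 97254416957)], 16896, 18112, 19328, 16384, 2, 2⟩ = true := by
  decide +kernel

theorem l22 : HoldsOn Lq Rq (Trg.left (Trg.left (Trg.right (chamber 1 1)))) (Trg.left (Trg.right (chamberN 1 4))) :=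
  HoldsOn.congrT (by decide +kernel) (by decide +kernel)
    (holdsOn_of_leafOK hLne hRne (by norm_num) (by norm_num) hLq (hRqg 6) hNn c22)

theorem c23 : leafOK 323 30 375 (⟨13, -5, -8, 16, -8, -8, 8, -4, -4, 24⟩ : Trg) (⟨-4, 2, 2, -5, 1, 4, -8, 4, 4, 48⟩ : Trg) Lq 12 6 67108864 Rq
    ⟨[(0, 60916900656442), (1, -474452785546330), (2, 1541537123005806), (3, -2672270112319534), (4, 2605172965464193), (5, -1353648297568939), (6, 292775298888854)], 8192, 11264, 14336, 16384, 16, 16⟩
    ⟨[(0, 199068068155), (1, -957088338109), (2, 1929242160465), (3, -2084818919443), (4, 1272818312274), (5, -415979665253), (6, 56825428392)], 16896, 18688, 20480, 16384, 2, 2⟩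
    ⟨[(0, 170477054377), (1, -809233144788), (2, 1610866709958), (3, -1719434126772), (4, 1037098995864), (5, -334929836125), (6, 45221271184)], 17408, 18944, 20480, 16384, 2, 2⟩ = true := by
  decide +kernel

theorem l23 : HoldsOn Lq Rq (Trg.right (Trg.left (Trg.right (chamber 1 1)))) (Trg.left (Trg.right (chamberN 1 4))) :=
  HoldsOn.congrT (by decide +kernel) (by decide +kernel)
    (holdsOn_of_leafOK hLne hRne (by norm_num) (by norm_num) hLq (hRqg 6) hNn c23)

end Vale.Agent.Lib.P154Neg.A4
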