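import Vale.Agent.Lib.P154Neg.A4.RayAll

/-!
# Pieces of the merge inequality
-/

namespace Vale.Agent.Lib.P154Neg.A4

open Vale.Agent.Lib.P154 Vale.Agent.Lib.P154GW Vale.Agent.Lib.P154K Tp

theorem c24 : leafOK 304 30 371 (⟨5, -1, -4, 2, 2, -4, 10, -2, -8, 24⟩ : Trg) (⟨-4, 2, 2, 0, 0, 0, -5, 4, 1, 48⟩ : Trg) Lq 12 6 67108864 Rq
    ⟨[(0, 1711008446654), (1, -9999312213310), (2, 24500275277273), (3, -32182679667552), (4, 23883510514227), (5, -9488431897576), (6, 1575696649148)], 13568, 16384, 16385, 16384, 16, 1⟩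
    ⟨[(0, 396288781334), (1, -2027835740187), (2, 4350082492324), (3, -5002228103008), (4, 3249341877050), (5, -1129742550753), (6, 164160352104)], 16383, 16384, 19712, 16384, 1, 4⟩
    ⟨[(0, 939537705867), (1, -5221145751045), (2, 12172256858351), (3, -15222690011529), (4, 10762047651187), (5, -4075409330480), (6, 645469986513)], 15360, 16384, 16896, 16384, 2, 2⟩ = true := by
  decide +kernel

theorem l24 : HoldsOn Lq Rq (Trg.left (Trg.left (Trg.left (chamber 1 1)))) (Trg.right (Trg.right (chamberNR 1 4))) :=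
  HoldsOn.congrT (by decide +kernel) (by decide +kernel)
    (holdsOn_of_leafOK hLne hRne (by norm_num) (by norm_num) hLq (hRqg 6) hNn c24)

theorem c25 : leafOK 319 30 373 (⟨13, -5, -8, 8, -4, -4, 10, -2, -8, 24⟩ : Trg) (⟨-4, 2, 2, -5, 4, 1, -8, 4, 4, 48⟩ : Trg) Lq 12 6 67108864 Rq
    ⟨[(0, 26767076873224), (1, -198020864538246), (2, 612836123333203), (3, -1014583253280269), (4, 946967835861863), (5, -472175314516924), (6, 98214280695048)], 9728, 12032, 14336, 16384, 16, 16⟩
    ⟨[(0, 170477054377), (1, -809233144788), (2, 1610866709958), (3, -1719434126772), (4, 1037098995864), (5, -334929836125), (6, 45221271184)], 17408, 18944, 20480, 16384, 2, 2⟩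
    ⟨[(0, 433208158092), (1, -2236960282451), (2, 4843448471663), (3, -5622739625944), (4, 3688138722907), (5, -1295159069591), (6, 190130734607)], 15872, 17408, 18944, 16384, 2, 4⟩ = true := by
  decide +kernel

theorem l25 : HoldsOn Lq Rq (Trg.left (Trg.left (Trg.right (chamber 1 1)))) (Trg.left (Trg.right (chamberNR 1 4))) :=
  HoldsOn.congrT (by decide +kernel) (by decide +kernel)
    (holdsOn_of_leafOK hLne hRne (by norm_num) (by norm_num) hLq (hRqg 6) hNn c25)

end Vale.Agent.Lib.P154Neg.A4
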