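import Vale.Agent.Lib.P154Neg.A4.RayAll

/-!
# Pieces of the merge inequality
-/

namespace Vale.Agent.Lib.P154Neg.A4

open Vale.Agent.Lib.P154 Vale.Agent.Lib.P154GW Vale.Agent.Lib.P154K Tp

theorem c26 : leafOK 323 30 375 (⟨13, -5, -8, 16, -8, -8, 8, -4, -4, 24⟩ : Trg) (⟨-4, 2, 2, -5, 4, 1, -8, 4, 4, 48⟩ : Trg) Lq 12 6 67108864 Rq
    ⟨[(0, 60916900656442), (1, -474452785546330), (2, 1541537123005806), (3, -2672270112319534), (4, 2605172965464193), (5, -1353648297568939), (6, 292775298888854)], 8192, 11264, 14336, 16384, 16, 16⟩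
    ⟨[(0, 170477054377), (1, -809233144788), (2, 1610866709958), (3, -1719434126772), (4, 1037098995864), (5, -334929836125), (6, 45221271184)], 17408, 18944, 20480, 16384, 2, 2⟩
    ⟨[(0, 215363863245), (1, -1042066259396), (2, 2113724032414), (3, -2298237175294), (4, 1411579164211), (5, -464056921338), (6, 63760380662)], 16640, 18560, 20480, 16384, 2, 2⟩ = true := by
  decide +kernel

theorem l26 : HoldsOn Lq Rq (Trg.right (Trg.left (Trg.right (chamber 1 1)))) (Trg.left (Trg.right (chamberNR 1 4))) :=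
  HoldsOn.congrT (by decide +kernel) (by decide +kernel)
    (holdsOn_of_leafOK hLne hRne (by norm_num) (by norm_num) hLq (hRqg 6) hNn c26)

theorem c27 : leafOK 310 31 334 (⟨7, 1, -8, 2, 2, -4, 4, 4, -8, 24⟩ : Trg) (⟨-13, 5, 8, -16, 8, 8, -8, 4, 4, 96⟩ : Trg) Lq 12 5 67108864 Rq
    ⟨[(0, 1296800706051), (1, -6756525216848), (2, 14163453563983), (3, -14916809245054), (4, 7886648424692), (5, -1673504212225)], 12800, 14336, 15872, 16384, 8, 8⟩
    ⟨[(0, 59975896851), (1, -237020863224), (2, 377050744698), (3, -301494145221), (4, 121079170372), (5, -19524331933)], 17408, 18944, 20480, 16384, 2, 2⟩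
    ⟨[(0, 587009003200), (1, -2857651459666), (2, 5600889802247), (3, -5518865499374), (4, 2731696583676), (5, -543011318273)], 14336, 15392, 16448, 16384, 8, 4⟩ = true := by
  decide +kernel

theorem l27 : HoldsOn Lq Rq (Trg.left (Trg.right (Trg.left (chamber 1 1)))) (Trg.right (Trg.left (Trg.right (chamberN 1 4)))) :=
  HoldsOn.congrT (by decide +kernel) (by decide +kernel)
    (holdsOn_of_leafOK hLne hRne (by norm_num) (by norm_num) hLq (hRqg 5) hNn c27)

end Vale.Agent.Lib.P154Neg.A4
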