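import Vale.Agent.Lib.P154Neg.A4.RayAll

/-!
# Pieces of the merge inequality
-/

namespace Vale.Agent.Lib.P154Neg.A4

open Vale.Agent.Lib.P154 Vale.Agent.Lib.P154GW Vale.Agent.Lib.P154K Tp

theorem c30 : leafOK 305 30 372 (⟨1, 1, -2, 5, -1, -4, 0, 0, 0, 12⟩ : Trg) (⟨-13, 5, 8, -8, 4, 4, -10, 2, 8, 96⟩ : Trg) Lq 12 6 67108864 Rq
    ⟨[(0, 2674372265493), (1, -16131346939819), (2, 40747331747869), (3, -55118841703604), (4, 42079555853017), (5, -17180271629873), (6, 2929267515781)], 12032, 16384, 16385, 16384, 16, 1⟩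
    ⟨[(0, 429174105890), (1, -2214303380096), (2, 4790285632622), (3, -5556032111789), (4, 3640931578130), (5, -1277296235553), (6, 187307519660)], 16383, 16384, 19328, 16384, 1, 4⟩
    ⟨[(0, 633353850286), (1, -3391693133183), (2, 7618142292648), (3, -9177066841211), (4, 6248097303671), (5, -2278079839414), (6, 347313476067)], 15744, 16384, 18176, 16384, 1, 4⟩ = true := by
  decide +kernel

theorem l30 : HoldsOn Lq Rq (Trg.left (Trg.left (chamber 1 1))) (Trg.left (Trg.left (Trg.right (chamberN 1 4)))) :=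
  HoldsOn.congrT (by decide +kernel) (by decide +kernel)
    (holdsOn_of_leafOK hLne hRne (by norm_num) (by norm_num) hLq (hRqg 6) hNn c30)

theorem c31 : leafOK 310 31 334 (⟨7, 1, -8, 2, 2, -4, 4, 4, -8, 24⟩ : Trg) (⟨-13, 8, 5, -16, 8, 8, -8, 4, 4, 96⟩ : Trg) Lq 12 5 67108864 Rq
    ⟨[(0, 1296800706051), (1, -6756525216848), (2, 14163453563983), (3, -14916809245054), (4, 7886648424692), (5, -1673504212225)], 12800, 14336, 15872, 16384, 8, 8⟩
    ⟨[(0, 59975896851), (1, -237020863224), (2, 377050744698), (3, -301494145221), (4, 121079170372), (5, -19524331933)], 17408, 18944, 20480, 16384, 2, 2⟩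
    ⟨[(0, 657223818974), (1, -3234944333707), (2, 6411463476059), (3, -6389189479314), (4, 3198726287696), (5, -643212703168)], 14336, 15232, 16128, 16384, 4, 4⟩ = true := by
  decide +kernel

theorem l31 : HoldsOn Lq Rq (Trg.left (Trg.right (Trg.left (chamber 1 1)))) (Trg.right (Trg.left (Trg.right (chamberNR 1 4)))) :=
  HoldsOn.congrT (by decide +kernel) (by decide +kernel)
    (holdsOn_of_leafOK hLne hRne (by norm_num) (by norm_num) hLq (hRqg 5) hNn c31)

end Vale.Agent.Lib.P154Neg.A4
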