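import Vale.Agent.Lib.P154Neg.A4.RayAll

/-!
# Pieces of the merge inequality
-/

namespace Vale.Agent.Lib.P154Neg.A4

open Vale.Agent.Lib.P154 Vale.Agent.Lib.P154GW Vale.Agent.Lib.P154K Tp

theorem c34 : leafOK 283 31 297 (⟨5, -1, -4, 0, 0, 0, 2, 2, -4, 24⟩ : Trg) (⟨-4, 2, 2, 0, 0, 0, -5, 4, 1, 96⟩ : Trg) Lq 12 4 67108864 Rq
    ⟨[(0, 105764246367), (1, -392741538816), (2, 550686569932), (3, -345198875924), (4, 81556707305)], 15680, 16384, 16385, 16384, 4, 1⟩
    ⟨[(0, 77720399909), (1, -280600706864), (2, 382526201410), (3, -233125248904), (4, 53546463313)], 16383, 16384, 17216, 16384, 1, 4⟩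
    ⟨[(0, 98975905350), (1, -365385699689), (2, 509348122993), (3, -317436135359), (4, 74564915569)], 15872, 16384, 16512, 16384, 2, 1⟩ = true := by
  decide +kernel

theorem l34 : HoldsOn Lq Rq (Trg.right (Trg.left (Trg.left (chamber 1 1)))) (Trg.right (Trg.left (Trg.right (Trg.right (chamberNR 1 4))))) :=
  HoldsOn.congrT (by decide +kernel) (by decide +kernel)
    (holdsOn_of_leafOK hLne hRne (by norm_num) (by norm_num) hLq (hRqg 4) hNn c34)

theorem c35 : leafOK 327 31 372 (⟨7, 1, -8, 10, -2, -8, 2, 2, -4, 24⟩ : Trg) (⟨-13, 8, 5, -8, 4, 4, -10, 8, 2, 96⟩ : Trg) Lq 12 6 67108864 Rq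
    ⟨[(0, 3924186363948), (1, -24642102799034), (2, 64835917589430), (3, -91396546184502), (4, 72743444333787), (5, -30974431850509), (6, 5509600082629)], 12416, 14272, 16128, 16384, 4, 16⟩
    ⟨[(0, 190132227879), (1, -912194761737), (2, 1835478377120), (3, -1980625122673), (4, 1207855546791), (5, -394436644334), (6, 53857353642)], 17408, 18752, 20096, 16384, 2, 2⟩
    ⟨[(0, 1085084657394), (1, -6105173472875), (2, 14409015703051), (3, -18240371118248), (4, 13051610936572), (5, -5001671064005), (6, 801571467009)], 15104, 16000, 16896, 16384, 2, 2⟩ = true := by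
  decide +kernel

theorem l35 : HoldsOn Lq Rq (Trg.right (Trg.right (Trg.left (chamber 1 1)))) (Trg.left (Trg.left (Trg.right (chamberNR 1 4)))) :=
  HoldsOn.congrT (by decide +kernel) (by decide +kernel)
    (holdsOn_of_leafOK hLne hRne (by norm_num) (by norm_num) hLq (hRqg 6) hNn c35)

end Vale.Agent.Lib.P154Neg.A4
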