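import Vale.Agent.Lib.P154Neg.A4.RayAll

/-!
# Pieces of the merge inequality
-/

namespace Vale.Agent.Lib.P154Neg.A4

open Vale.Agent.Lib.P154 Vale.Agent.Lib.P154GW Vale.Agent.Lib.P154K Tp

theorem c36 : leafOK 304 32 313 (⟨5, -1, -4, 2, 2, -4, 10, -2, -8, 24⟩ : Trg) (⟨-13, 5, 8, -8, 4, 4, -10, 2, 8, 192⟩ : Trg) Lq 12 4 67108864 Rq
    ⟨[(0, 214771985970), (1, -848347148028), (2, 1264771815547), (3, -842619758824), (4, 211490562180)], 14208, 15168, 16128, 16384, 4, 8⟩
    ⟨[(0, 49004783073), (1, -169639886768), (2, 221731808451), (3, -129561444672), (4, 28531802112)], 16832, 17344, 17856, 16384, 2, 2⟩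
    ⟨[(0, 75718061584), (1, -272594608629), (2, 370527814396), (3, -225137298404), (4, 51553140451)], 16064, 16672, 17280, 16384, 2, 4⟩ = true := by
  decide +kernel

theorem l36 : HoldsOn Lq Rq (Trg.left (Trg.left (Trg.left (chamber 1 1)))) (Trg.left (Trg.left (Trg.left (Trg.right (Trg.right (chamberN 1 4)))))) :=
  HoldsOn.congrT (by decide +kernel) (by decide +kernel)
    (holdsOn_of_leafOK hLne hRne (by norm_num) (by norm_num) hLq (hRqg 4) hNn c36)

theorem c37 : leafOK 305 32 313 (⟨5, -1, -4, 2, 2, -4, 10, -2, -8, 24⟩ : Trg) (⟨-13, 5, 8, -16, 8, 8, -8, 4, 4, 192⟩ : Trg) Lq 12 4 67108864 Rq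
    ⟨[(0, 247576135573), (1, -989180201414), (2, 1491364163482), (3, -1004553784844), (4, 254861508149)], 13824, 14976, 16128, 16384, 4, 8⟩
    ⟨[(0, 40115587205), (1, -136259414059), (2, 174733226598), (3, -100156126891), (4, 21633694126)], 16896, 17664, 18432, 16384, 2, 4⟩
    ⟨[(0, 86009859200), (1, -313247422509), (2, 430735705076), (3, -264761997677), (4, 61330964914)], 15872, 16480, 17088, 16384, 4, 4⟩ = true := by
  decide +kernel

theorem l37 : HoldsOn Lq Rq (Trg.left (Trg.left (Trg.left (chamber 1 1)))) (Trg.right (Trg.left (Trg.left (Trg.right (Trg.right (chamberN 1 4)))))) :=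
  HoldsOn.congrT (by decide +kernel) (by decide +kernel)
    (holdsOn_of_leafOK hLne hRne (by norm_num) (by norm_num) hLq (hRqg 4) hNn c37)

end Vale.Agent.Lib.P154Neg.A4
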