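import Vale.Agent.Lib.P154Neg.A4.RayAll

/-!
# Pieces of the merge inequality
-/

namespace Vale.Agent.Lib.P154Neg.A4

open Vale.Agent.Lib.P154 Vale.Agent.Lib.P154GW Vale.Agent.Lib.P154K Tp

theorem c38 : leafOK 288 30 333 (⟨1, 1, -2, 2, 2, -4, 5, -1, -4, 12⟩ : Trg) (⟨-5, 4, 1, -8, 4, 4, 0, 0, 0, 96⟩ : Trg) Lq 12 5 67108864 Rq
    ⟨[(0, 538842666435), (1, -2597139429515), (2, 5038466695172), (3, -4912936955033), (4, 2405891952259), (5, -473057820454)], 13824, 16384, 16385, 16384, 8, 1⟩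
    ⟨[(0, 189161255955), (1, -831163252119), (2, 1470438954343), (3, -1307896796481), (4, 584397200458), (5, -104870253292)], 16383, 16384, 18432, 16384, 1, 2⟩
    ⟨[(0, 328230949809), (1, -1518405216214), (2, 2828869081470), (3, -2650432224261), (4, 1247797061747), (5, -235992543687)], 15360, 16384, 16896, 16384, 4, 1⟩ = true := by
  decide +kernel

theorem l38 : HoldsOn Lq Rq (Trg.right (Trg.left (chamber 1 1))) (Trg.left (Trg.right (Trg.right (chamberNR 1 4)))) :=
  HoldsOn.congrT (by decide +kernel) (by decide +kernel)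
    (holdsOn_of_leafOK hLne hRne (by norm_num) (by norm_num) hLq (hRqg 5) hNn c38)

theorem c39 : leafOK 290 31 313 (⟨3, 3, -6, 7, 1, -8, 2, 2, -4, 24⟩ : Trg) (⟨-13, 8, 5, -8, 4, 4, -10, 8, 2, 96⟩ : Trg) Lq 12 4 67108864 Rq
    ⟨[(0, 253570563123), (1, -1015051516470), (2, 1533204500358), (3, -1034605256968), (4, 262949614518)], 13760, 14944, 16128, 16384, 4, 8⟩
    ⟨[(0, 22049356756), (1, -70788744644), (2, 85772924695), (3, -46440029466), (4, 9472187999)], 17408, 18656, 19904, 16384, 2, 2⟩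
    ⟨[(0, 170321768019), (1, -659888497967), (2, 965242433970), (3, -631110032451), (4, 155501518966)], 14848, 15488, 16128, 16384, 4, 8⟩ = true := by
  decide +kernel

theorem l39 : HoldsOn Lq Rq (Trg.left (Trg.left (Trg.right (Trg.left (chamber 1 1))))) (Trg.left (Trg.left (Trg.right (chamberNR 1 4)))) :=
  HoldsOn.congrT (by decide +kernel) (by decide +kernel)
    (holdsOn_of_leafOK hLne hRne (by norm_num) (by norm_num) hLq (hRqg 4) hNn c39)

end Vale.Agent.Lib.P154Neg.A4
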