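import Vale.Agent.Lib.P154Neg.A4.RayAll

/-!
# Pieces of the merge inequality
-/

namespace Vale.Agent.Lib.P154Neg.A4

open Vale.Agent.Lib.P154 Vale.Agent.Lib.P154GW Vale.Agent.Lib.P154K Tp

theorem c4 : leafOK 296 29 373 (⟨4, -2, -2, 5, -1, -4, 8, -4, -4, 12⟩ : Trg) (⟨-1, -1, 2, -2, -2, 4, -5, 1, 4, 48⟩ : Trg) Lq 12 6 67108864 Rq
    ⟨[(0, 7018660145407), (1, -46173012476880), (2, 127149473261736), (3, -187417510658928), (4, 155833031725479), (5, -69257871718952), (6, 12847306704341)], 11264, 13568, 15872, 16384, 16, 16⟩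
    ⟨[(0, 931722824146), (1, -5141767706121), (2, 11891945698005), (3, -14739163509156), (4, 10316777833575), (5, -3864205008933), (6, 604756987202)], 14336, 16256, 18176, 16384, 4, 8⟩
    ⟨[(0, 170477054377), (1, -809233144788), (2, 1610866709958), (3, -1719434126772), (4, 1037098995864), (5, -334929836125), (6, 45221271184)], 17408, 18944, 20480, 16384, 2, 2⟩ = true := by
  decide +kernel

theorem l4 : HoldsOn Lq Rq (Trg.left (Trg.right (chamber 1 1))) (Trg.right (Trg.left (chamberN 1 4))) :=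
  HoldsOn.congrT (by decide +kernel) (by decide +kernel)
    (holdsOn_of_leafOK hLne hRne (by norm_num) (by norm_num) hLq (hRqg 6) hNn c4)

theorem c5 : leafOK 285 29 371 (⟨4, -2, -2, 0, 0, 0, 5, -1, -4, 12⟩ : Trg) (⟨-1, -1, 2, -5, 1, 4, 0, 0, 0, 48⟩ : Trg) Lq 12 6 67108864 Rq
    ⟨[(0, 2125818053940), (1, -12624187730838), (2, 31415446219900), (3, -41891119137400), (4, 31544416667340), (5, -12710089620842), (6, 2139782656764)], 12800, 16384, 16385, 16384, 16, 1⟩
    ⟨[(0, 615465000139), (1, -3287803455620), (2, 7366837265661), (3, -8852968522096), (4, 6013068499488), (5, -2187212367378), (6, 332680688670)], 15872, 16384, 18176, 16384, 1, 8⟩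
    ⟨[(0, 519851853062), (1, -2734577592962), (2, 6033495464624), (3, -7139629955417), (4, 4775042022336), (5, -1710258339791), (6, 256143657012)], 16383, 16384, 18432, 16384, 1, 8⟩ = true := by
  decide +kernel

theorem l5 : HoldsOn Lq Rq (Trg.right (Trg.right (chamber 1 1))) (Trg.left (Trg.left (chamberN 1 4))) :=
  HoldsOn.congrT (by decide +kernel) (by decide +kernel)
    (holdsOn_of_leafOK hLne hRne (by norm_num) (by norm_num) hLq (hRqg 6) hNn c5)

end Vale.Agent.Lib.P154Neg.A4
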