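import Vale.Agent.Lib.P154Neg.A4.RayAll

/-!
# Pieces of the merge inequality
-/

namespace Vale.Agent.Lib.P154Neg.A4

open Vale.Agent.Lib.P154 Vale.Agent.Lib.P154GW Vale.Agent.Lib.P154K Tp

theorem c40 : leafOK 312 32 313 (⟨17, -1, -16, 12, 0, -12, 14, 2, -16, 48⟩ : Trg) (⟨-9, 3, 6, -13, 5, 8, -8, 4, 4, 96⟩ : Trg) Lq 12 4 67108864 Rq
    ⟨[(0, 645264585107), (1, -2811089971460), (2, 4620772435427), (3, -3393106590960), (4, 938392483740)], 12608, 13728, 14848, 16384, 8, 8⟩
    ⟨[(0, 21178848451), (1, -67882462413), (2, 82143252282), (3, -44430650618), (4, 9056241597)], 17920, 18720, 19520, 16384, 2, 2⟩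
    ⟨[(0, 78126339406), (1, -282159905911), (2, 384771269399), (3, -234561492517), (4, 53890898693)], 16128, 16624, 17120, 16384, 2, 4⟩ = true := by
  decide +kernel

theorem l40 : HoldsOn Lq Rq (Trg.left (Trg.left (Trg.right (Trg.right (Trg.left (chamber 1 1)))))) (Trg.left (Trg.left (Trg.left (Trg.right (chamberN 1 4))))) :=
  HoldsOn.congrT (by decide +kernel) (by decide +kernel)
    (holdsOn_of_leafOK hLne hRne (by norm_num) (by norm_num) hLq (hRqg 4) hNn c40)

theorem c41 : leafOK 310 30 372 (⟨4, -2, -2, 5, -1, -4, 8, -4, -4, 12⟩ : Trg) (⟨-5, 4, 1, -8, 4, 4, 0, 0, 0, 96⟩ : Trg) Lq 12 6 67108864 Rq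
    ⟨[(0, 2473306009184), (1, -14842052725739), (2, 37307068747001), (3, -50229121692848), (4, 38175023081360), (5, -15519387647901), (6, 2635231337807)], 12288, 16384, 16385, 16384, 16, 1⟩
    ⟨[(0, 519851853062), (1, -2734577592962), (2, 6033495464624), (3, -7139629955417), (4, 4775042022336), (5, -1710258339791), (6, 256143657012)], 16383, 16384, 18432, 16384, 1, 8⟩
    ⟨[(0, 549296291053), (1, -2903490312758), (2, 6437081023361), (3, -7653710598039), (4, 5143231466625), (5, -1850840564417), (6, 278499803039)], 16128, 16384, 18432, 16384, 1, 8⟩ = true := by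
  decide +kernel

theorem l41 : HoldsOn Lq Rq (Trg.left (Trg.right (chamber 1 1))) (Trg.left (Trg.right (Trg.right (chamberNR 1 4)))) :=
  HoldsOn.congrT (by decide +kernel) (by decide +kernel)
    (holdsOn_of_leafOK hLne hRne (by norm_num) (by norm_num) hLq (hRqg 6) hNn c41)

end Vale.Agent.Lib.P154Neg.A4
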