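import Vale.Agent.Lib.P154Neg.A4.RayAll

/-!
# Pieces of the merge inequality
-/

namespace Vale.Agent.Lib.P154Neg.A4

open Vale.Agent.Lib.P154 Vale.Agent.Lib.P154GW Vale.Agent.Lib.P154K Tp

theorem c42 : leafOK 315 30 372 (⟨4, -2, -2, 5, -1, -4, 8, -4, -4, 12⟩ : Trg) (⟨-5, 4, 1, -10, 8, 2, -8, 4, 4, 96⟩ : Trg) Lq 12 6 67108864 Rq
    ⟨[(0, 9471766034475), (1, -64293994321878), (2, 182796637288074), (3, -278351753625781), (4, 239234991616596), (5, -109966217202787), (6, 21108775211048)], 11264, 13184, 15104, 16384, 16, 16⟩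
    ⟨[(0, 170477054377), (1, -809233144788), (2, 1610866709958), (3, -1719434126772), (4, 1037098995864), (5, -334929836125), (6, 45221271184)], 17408, 18944, 20480, 16384, 2, 2⟩
    ⟨[(0, 507569777583), (1, -2661950386939), (2, 5854886490694), (3, -6905781991913), (4, 4603112600875), (5, -1642951059821), (6, 245181678426)], 15872, 17152, 18432, 16384, 2, 4⟩ = true := by
  decide +kernel

theorem l42 : HoldsOn Lq Rq (Trg.left (Trg.right (chamber 1 1))) (Trg.right (Trg.right (Trg.right (chamberNR 1 4)))) :=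
  HoldsOn.congrT (by decide +kernel) (by decide +kernel)
    (holdsOn_of_leafOK hLne hRne (by norm_num) (by norm_num) hLq (hRqg 6) hNn c42)

theorem c43 : leafOK 308 32 313 (⟨13, 1, -14, 12, 0, -12, 9, 3, -12, 48⟩ : Trg) (⟨-9, 3, 6, -13, 5, 8, -8, 4, 4, 96⟩ : Trg) Lq 12 4 67108864 Rq
    ⟨[(0, 399425980200), (1, -1669404794840), (2, 2633509521822), (3, -1856496980004), (4, 493058750124)], 13440, 14336, 15232, 16384, 4, 8⟩
    ⟨[(0, 23930628166), (1, -77606051566), (2, 95025340031), (3, -52014315369), (4, 10730102069)], 17920, 18512, 19104, 16384, 1, 2⟩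
    ⟨[(0, 91649737697), (1, -335925870499), (2, 464925771460), (3, -287666266719), (4, 67083737012)], 16000, 16384, 16768, 16384, 2, 2⟩ = true := by
  decide +kernel

theorem l43 : HoldsOn Lq Rq (Trg.right (Trg.right (Trg.right (Trg.right (Trg.right (Trg.left (chamber 1 1))))))) (Trg.left (Trg.left (Trg.left (Trg.right (chamberN 1 4))))) :=
  HoldsOn.congrT (by decide +kernel) (by decide +kernel)
    (holdsOn_of_leafOK hLne hRne (by norm_num) (by norm_num) hLq (hRqg 4) hNn c43)

end Vale.Agent.Lib.P154Neg.A4
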