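import Vale.Agent.Lib.P154Neg.A4.RayAll

/-!
# Pieces of the merge inequality
-/

namespace Vale.Agent.Lib.P154Neg.A4

open Vale.Agent.Lib.P154 Vale.Agent.Lib.P154GW Vale.Agent.Lib.P154K Tp

theorem c44 : leafOK 284 31 297 (⟨1, 1, -2, 5, -1, -4, 0, 0, 0, 24⟩ : Trg) (⟨-5, 1, 4, -10, 2, 8, -8, 4, 4, 96⟩ : Trg) Lq 12 4 67108864 Rq
    ⟨[(0, 133962683153), (1, -506875083510), (2, 723911941046), (3, -462042731214), (4, 111110299389)], 14592, 16384, 16385, 16384, 4, 1⟩
    ⟨[(0, 74903470290), (1, -269451374122), (2, 365979816977), (3, -222212759788), (4, 50847955507)], 16383, 16384, 17408, 16384, 1, 4⟩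
    ⟨[(0, 80569696326), (1, -291779974290), (2, 398972441729), (3, -243877112932), (4, 56182058031)], 16128, 16384, 17280, 16384, 1, 4⟩ = true := by
  decide +kernel

theorem l44 : HoldsOn Lq Rq (Trg.left (Trg.right (Trg.left (Trg.left (chamber 1 1))))) (Trg.right (Trg.right (Trg.right (chamberN 1 4)))) :=
  HoldsOn.congrT (by decide +kernel) (by decide +kernel)
    (holdsOn_of_leafOK hLne hRne (by norm_num) (by norm_num) hLq (hRqg 4) hNn c44)

theorem c45 : leafOK 308 32 313 (⟨9, 3, -12, 6, 6, -12, 14, 2, -16, 48⟩ : Trg) (⟨-9, 3, 6, -13, 5, 8, -8, 4, 4, 96⟩ : Trg) Lq 12 4 67108864 Rq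
    ⟨[(0, 381648131122), (1, -1584543725153), (2, 2482123839629), (3, -1736846315219), (4, 457698540692)], 13184, 14400, 15616, 16384, 8, 8⟩
    ⟨[(0, 21178848451), (1, -67882462413), (2, 82143252282), (3, -44430650618), (4, 9056241597)], 17920, 18720, 19520, 16384, 2, 2⟩
    ⟨[(0, 119050155311), (1, -446606729896), (2, 632569382192), (3, -400512410405), (4, 95566712250)], 15424, 16000, 16576, 16384, 4, 4⟩ = true := by
  decide +kernel

theorem l45 : HoldsOn Lq Rq (Trg.left (Trg.left (Trg.left (Trg.right (Trg.left (chamber 1 1)))))) (Trg.left (Trg.left (Trg.left (Trg.right (chamberN 1 4))))) :=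
  HoldsOn.congrT (by decide +kernel) (by decide +kernel)
    (holdsOn_of_leafOK hLne hRne (by norm_num) (by norm_num) hLq (hRqg 4) hNn c45)

end Vale.Agent.Lib.P154Neg.A4
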