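import Vale.Agent.Lib.P154Neg.A4.RayAll

/-!
# Pieces of the merge inequality
-/

namespace Vale.Agent.Lib.P154Neg.A4

open Vale.Agent.Lib.P154 Vale.Agent.Lib.P154GW Vale.Agent.Lib.P154K Tp

theorem c46 : leafOK 292 31 313 (⟨3, 3, -6, 4, 4, -8, 7, 1, -8, 24⟩ : Trg) (⟨-9, 6, 3, -13, 8, 5, -8, 4, 4, 96⟩ : Trg) Lq 12 4 67108864 Rq
    ⟨[(0, 284990493725), (1, -1154330771954), (2, 1764537216083), (3, -1205232329468), (4, 310105617664)], 13760, 14784, 15808, 16384, 4, 8⟩
    ⟨[(0, 18947003241), (1, -60075113715), (2, 71904841806), (3, -38465273992), (4, 7753273002)], 17920, 18912, 19904, 16384, 1, 2⟩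
    ⟨[(0, 204940216815), (1, -806407340420), (2, 1197714673229), (3, -794990409280), (4, 198810236697)], 14336, 15232, 16128, 16384, 4, 8⟩ = true := by
  decide +kernel

theorem l46 : HoldsOn Lq Rq (Trg.right (Trg.left (Trg.right (Trg.left (chamber 1 1))))) (Trg.left (Trg.left (Trg.left (Trg.right (chamberNR 1 4))))) :=
  HoldsOn.congrT (by decide +kernel) (by decide +kernel)
    (holdsOn_of_leafOK hLne hRne (by norm_num) (by norm_num) hLq (hRqg 4) hNn c46)

theorem c47 : leafOK 288 31 313 (⟨6, 0, -6, 5, -1, -4, 2, 2, -4, 24⟩ : Trg) (⟨-9, 3, 6, -5, 1, 4, -10, 2, 8, 96⟩ : Trg) Lq 12 4 67108864 Rq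
    ⟨[(0, 246973127184), (1, -988332453957), (2, 1492868916524), (3, -1007728682344), (4, 256287640588)], 14080, 14976, 15872, 16384, 4, 8⟩
    ⟨[(0, 48025965967), (1, -165933280680), (2, 216468915281), (3, -126240725414), (4, 27746181154)], 16832, 17376, 17920, 16384, 2, 4⟩
    ⟨[(0, 77346389210), (1, -278964500148), (2, 379870499784), (3, -231226317144), (4, 53041037522)], 16000, 16640, 17280, 16384, 4, 4⟩ = true := by
  decide +kernel

theorem l47 : HoldsOn Lq Rq (Trg.left (Trg.left (Trg.left (Trg.left (chamber 1 1))))) (Trg.left (Trg.right (Trg.right (Trg.right (chamberN 1 4))))) :=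
  HoldsOn.congrT (by decide +kernel) (by decide +kernel)
    (holdsOn_of_leafOK hLne hRne (by norm_num) (by norm_num) hLq (hRqg 4) hNn c47)

end Vale.Agent.Lib.P154Neg.A4
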