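import Vale.Agent.Lib.P154Neg.A4.RayAll

/-!
# Pieces of the merge inequality
-/

namespace Vale.Agent.Lib.P154Neg.A4

open Vale.Agent.Lib.P154 Vale.Agent.Lib.P154GW Vale.Agent.Lib.P154K Tp

theorem c48 : leafOK 293 31 313 (⟨6, 0, -6, 10, -2, -8, 5, -1, -4, 24⟩ : Trg) (⟨-9, 3, 6, -5, 1, 4, -10, 2, 8, 96⟩ : Trg) Lq 12 4 67108864 Rq
    ⟨[(0, 465956548577), (1, -1967040300580), (2, 3132281671449), (3, -2227566437018), (4, 596466932447)], 12800, 14144, 15488, 16384, 8, 8⟩
    ⟨[(0, 42588498466), (1, -145462765758), (2, 187574690240), (3, -108117729178), (4, 23484316748)], 16832, 17568, 18304, 16384, 2, 4⟩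
    ⟨[(0, 45228968191), (1, -155343947452), (2, 201438259488), (3, -116760760648), (4, 25504524146)], 16768, 17472, 18176, 16384, 2, 4⟩ = true := by
  decide +kernel

theorem l48 : HoldsOn Lq Rq (Trg.right (Trg.left (Trg.left (Trg.left (chamber 1 1))))) (Trg.left (Trg.right (Trg.right (Trg.right (chamberN 1 4))))) :=
  HoldsOn.congrT (by decide +kernel) (by decide +kernel)
    (holdsOn_of_leafOK hLne hRne (by norm_num) (by norm_num) hLq (hRqg 4) hNn c48)

theorem c49 : leafOK 308 32 313 (⟨11, 5, -16, 6, 6, -12, 8, 8, -16, 48⟩ : Trg) (⟨-9, 3, 6, -13, 5, 8, -8, 4, 4, 96⟩ : Trg) Lq 12 4 67108864 Rq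
    ⟨[(0, 305909847398), (1, -1247840710678), (2, 1921180579072), (3, -1321778986995), (4, 342602176423)], 13760, 14688, 15616, 16384, 4, 8⟩
    ⟨[(0, 20028469481), (1, -63848827737), (2, 76841080127), (3, -41333948810), (4, 8378213952)], 17920, 18816, 19712, 16384, 2, 2⟩
    ⟨[(0, 157240909088), (1, -605116778912), (2, 879256999763), (3, -571127032641), (4, 139813060671)], 15104, 15600, 16096, 16384, 4, 4⟩ = true := by
  decide +kernel

theorem l49 : HoldsOn Lq Rq (Trg.left (Trg.right (Trg.left (Trg.right (Trg.left (chamber 1 1)))))) (Trg.left (Trg.left (Trg.left (Trg.right (chamberN 1 4))))) :=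
  HoldsOn.congrT (by decide +kernel) (by decide +kernel)
    (holdsOn_of_leafOK hLne hRne (by norm_num) (by norm_num) hLq (hRqg 4) hNn c49)

end Vale.Agent.Lib.P154Neg.A4
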