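import Vale.Agent.Lib.P154Neg.A4.RayAll

/-!
# Pieces of the merge inequality
-/

namespace Vale.Agent.Lib.P154Neg.A4

open Vale.Agent.Lib.P154 Vale.Agent.Lib.P154GW Vale.Agent.Lib.P154K Tp

theorem c50 : leafOK 305 32 313 (⟨9, 3, -12, 4, 4, -8, 6, 6, -12, 48⟩ : Trg) (⟨-9, 3, 6, -13, 5, 8, -8, 4, 4, 96⟩ : Trg) Lq 12 4 67108864 Rq
    ⟨[(0, 230037774714), (1, -915167116786), (2, 1374382401680), (3, -922483110364), (4, 233298172558)], 14272, 15072, 15872, 16384, 4, 8⟩
    ⟨[(0, 29862826771), (1, -98766976048), (2, 123327913984), (3, -68836244781), (4, 14478952338)], 17408, 18144, 18880, 16384, 2, 2⟩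
    ⟨[(0, 131431225733), (1, -497715515427), (2, 711674336515), (3, -454921179392), (4, 109598244563)], 15424, 15856, 16288, 16384, 2, 4⟩ = true := by
  decide +kernel

theorem l50 : HoldsOn Lq Rq (Trg.right (Trg.left (Trg.left (Trg.right (Trg.left (chamber 1 1)))))) (Trg.left (Trg.left (Trg.left (Trg.right (chamberN 1 4))))) :=
  HoldsOn.congrT (by decide +kernel) (by decide +kernel)
    (holdsOn_of_leafOK hLne hRne (by norm_num) (by norm_num) hLq (hRqg 4) hNn c50)

theorem c51 : leafOK 305 32 312 (⟨9, 3, -12, 4, 4, -8, 6, 6, -12, 48⟩ : Trg) (⟨-9, 3, 6, -10, 2, 8, -13, 5, 8, 96⟩ : Trg) Lq 12 4 67108864 Rq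
    ⟨[(0, 252470376929), (1, -1013555464119), (2, 1536148314655), (3, -1040650224996), (4, 265656564281)], 14272, 14944, 15616, 16384, 4, 8⟩
    ⟨[(0, 28720573754), (1, -94673196255), (2, 117827051879), (3, -65551757213), (4, 13743678369)], 17536, 18208, 18880, 16384, 2, 2⟩
    ⟨[(0, 119050155311), (1, -446606729896), (2, 632569382192), (3, -400512410405), (4, 95566712250)], 15424, 16000, 16576, 16384, 4, 4⟩ = true := by
  decide +kernel

theorem l51 : HoldsOn Lq Rq (Trg.right (Trg.left (Trg.left (Trg.right (Trg.left (chamber 1 1)))))) (Trg.right (Trg.left (Trg.left (Trg.right (chamberN 1 4))))) :=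
  HoldsOn.congrT (by decide +kernel) (by decide +kernel)
    (holdsOn_of_leafOK hLne hRne (by norm_num) (by norm_num) hLq (hRqg 4) hNn c51)

end Vale.Agent.Lib.P154Neg.A4
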