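import Vale.Agent.Lib.P154Neg.A4.RayAll

/-!
# Pieces of the merge inequality
-/

namespace Vale.Agent.Lib.P154Neg.A4

open Vale.Agent.Lib.P154 Vale.Agent.Lib.P154GW Vale.Agent.Lib.P154K Tp

theorem c52 : leafOK 272 30 313 (⟨5, -1, -4, 8, -4, -4, 0, 0, 0, 24⟩ : Trg) (⟨-4, 2, 2, -5, 1, 4, -8, 4, 4, 48⟩ : Trg) Lq 12 4 67108864 Rq
    ⟨[(0, 250533513573), (1, -982667023674), (2, 1452053684656), (3, -957233719622), (4, 237380653931)], 12288, 16384, 16385, 16384, 8, 1⟩
    ⟨[(0, 62039923378), (1, -218870819670), (2, 291419927784), (3, -173380457110), (4, 38858534482)], 16383, 16384, 18432, 16384, 1, 4⟩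
    ⟨[(0, 62039923378), (1, -218870819670), (2, 291419927784), (3, -173380457110), (4, 38858534482)], 16383, 16384, 18432, 16384, 1, 4⟩ = true := by
  decide +kernel

theorem l52 : HoldsOn Lq Rq (Trg.left (Trg.right (Trg.right (chamber 1 1)))) (Trg.left (Trg.right (chamberN 1 4))) :=
  HoldsOn.congrT (by decide +kernel) (by decide +kernel)
    (holdsOn_of_leafOK hLne hRne (by norm_num) (by norm_num) hLq (hRqg 4) hNn c52)

theorem c53 : leafOK 297 30 348 (⟨5, -1, -4, 10, -2, -8, 8, -4, -4, 24⟩ : Trg) (⟨-4, 2, 2, -5, 1, 4, -8, 4, 4, 48⟩ : Trg) Lq 12 5 67108864 Rq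
    ⟨[(0, 3313239943942), (1, -18682826186573), (2, 42347258302590), (3, -48181110793716), (4, 27495177480400), (5, -6291922494426)], 11264, 13184, 15104, 16384, 16, 8⟩
    ⟨[(0, 69949868979), (1, -279879820756), (2, 450659237133), (3, -364653858258), (4, 148154993477), (5, -24163564276)], 16896, 18688, 20480, 16384, 2, 2⟩
    ⟨[(0, 139387898678), (1, -596177204902), (2, 1026831323908), (3, -889318878544), (4, 386985655449), (5, -67641694086)], 16640, 17536, 18432, 16384, 2, 2⟩ = true := by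
  decide +kernel

theorem l53 : HoldsOn Lq Rq (Trg.right (Trg.right (Trg.right (chamber 1 1)))) (Trg.left (Trg.right (chamberN 1 4))) :=
  HoldsOn.congrT (by decide +kernel) (by decide +kernel)
    (holdsOn_of_leafOK hLne hRne (by norm_num) (by norm_num) hLq (hRqg 5) hNn c53)

end Vale.Agent.Lib.P154Neg.A4
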