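import Vale.Agent.Lib.P154Neg.A4.RayAll

/-!
# Pieces of the merge inequality
-/

namespace Vale.Agent.Lib.P154Neg.A4

open Vale.Agent.Lib.P154 Vale.Agent.Lib.P154GW Vale.Agent.Lib.P154K Tp

theorem c54 : leafOK 299 32 297 (⟨1, 1, -2, 5, -1, -4, 0, 0, 0, 24⟩ : Trg) (⟨-13, 5, 8, -16, 8, 8, -8, 4, 4, 192⟩ : Trg) Lq 12 4 67108864 Rq
    ⟨[(0, 119531841317), (1, -448352547372), (2, 634919011678), (3, -401901113548), (4, 95869916789)], 15104, 16384, 16385, 16384, 4, 1⟩
    ⟨[(0, 74903470290), (1, -269451374122), (2, 365979816977), (3, -222212759788), (4, 50847955507)], 16383, 16384, 17408, 16384, 1, 4⟩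
    ⟨[(0, 89783000827), (1, -328548543463), (2, 453994580080), (3, -280468900119), (4, 65306971539)], 16128, 16384, 16736, 16384, 1, 2⟩ = true := by
  decide +kernel

theorem l54 : HoldsOn Lq Rq (Trg.left (Trg.right (Trg.left (Trg.left (chamber 1 1))))) (Trg.right (Trg.left (Trg.left (Trg.right (Trg.right (chamberN 1 4)))))) :=
  HoldsOn.congrT (by decide +kernel) (by decide +kernel)
    (holdsOn_of_leafOK hLne hRne (by norm_num) (by norm_num) hLq (hRqg 4) hNn c54)

theorem c55 : leafOK 325 33 313 (⟨9, 3, -12, 6, 6, -12, 14, 2, -16, 48⟩ : Trg) (⟨-23, 7, 16, -18, 6, 12, -20, 4, 16, 192⟩ : Trg) Lq 12 4 67108864 Rq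
    ⟨[(0, 409496580633), (1, -1714975120684), (2, 2710798154304), (3, -1914726487926), (4, 509501708748)], 13376, 14304, 15232, 16384, 8, 8⟩
    ⟨[(0, 23698699326), (1, -76800874184), (2, 93977560639), (3, -51408596480), (4, 10598850560)], 18016, 18528, 19040, 16384, 1, 1⟩
    ⟨[(0, 92731422376), (1, -339982551958), (2, 470605754823), (3, -291183053086), (4, 67895537795)], 15712, 16368, 17024, 16384, 4, 4⟩ = true := by
  decide +kernel

theorem l55 : HoldsOn Lq Rq (Trg.left (Trg.left (Trg.left (Trg.right (Trg.left (chamber 1 1)))))) (Trg.left (Trg.right (Trg.left (Trg.left (Trg.right (chamberN 1 4)))))) :=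
  HoldsOn.congrT (by decide +kernel) (by decide +kernel)
    (holdsOn_of_leafOK hLne hRne (by norm_num) (by norm_num) hLq (hRqg 4) hNn c55)

end Vale.Agent.Lib.P154Neg.A4
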