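import Vale.Agent.Lib.P154Neg.A4.RayAll

/-!
# Pieces of the merge inequality
-/

namespace Vale.Agent.Lib.P154Neg.A4

open Vale.Agent.Lib.P154 Vale.Agent.Lib.P154GW Vale.Agent.Lib.P154K Tp

theorem c56 : leafOK 325 33 312 (⟨13, 1, -14, 12, 0, -12, 9, 3, -12, 48⟩ : Trg) (⟨-23, 7, 16, -18, 6, 12, -20, 4, 16, 192⟩ : Trg) Lq 12 4 67108864 Rq
    ⟨[(0, 429195795342), (1, -1808454224020), (2, 2876860593204), (3, -2045628487214), (4, 548137394502)], 13632, 14240, 14848, 16384, 4, 8⟩
    ⟨[(0, 27213331203), (1, -89329415754), (2, 110724084872), (3, -61356661353), (4, 12814781083)], 17920, 18296, 18672, 16384, 1, 1⟩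
    ⟨[(0, 73315961938), (1, -263305606888), (2, 357061663507), (3, -216463711676), (4, 49458802289)], 16288, 16720, 17152, 16384, 2, 2⟩ = true := by
  decide +kernel

theorem l56 : HoldsOn Lq Rq (Trg.right (Trg.right (Trg.right (Trg.right (Trg.right (Trg.left (chamber 1 1))))))) (Trg.left (Trg.right (Trg.left (Trg.left (Trg.right (chamberN 1 4)))))) :=
  HoldsOn.congrT (by decide +kernel) (by decide +kernel)
    (holdsOn_of_leafOK hLne hRne (by norm_num) (by norm_num) hLq (hRqg 4) hNn c56)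

theorem c57 : leafOK 326 33 313 (⟨13, 1, -14, 12, 0, -12, 9, 3, -12, 48⟩ : Trg) (⟨-23, 7, 16, -26, 10, 16, -18, 6, 12, 192⟩ : Trg) Lq 12 4 67108864 Rq
    ⟨[(0, 462639075560), (1, -1961740152721), (2, 3140253939019), (3, -2246724294136), (4, 605696134127)], 13440, 14144, 14848, 16384, 4, 8⟩
    ⟨[(0, 23930628166), (1, -77606051566), (2, 95025340031), (3, -52014315369), (4, 10730102069)], 17920, 18512, 19104, 16384, 1, 2⟩
    ⟨[(0, 83249318759), (1, -302450093787), (2, 414903846881), (3, -254448044309), (4, 58812081346)], 16096, 16528, 16960, 16384, 2, 4⟩ = true := by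
  decide +kernel

theorem l57 : HoldsOn Lq Rq (Trg.right (Trg.right (Trg.right (Trg.right (Trg.right (Trg.left (chamber 1 1))))))) (Trg.right (Trg.right (Trg.left (Trg.left (Trg.right (chamberN 1 4)))))) :=
  HoldsOn.congrT (by decide +kernel) (by decide +kernel)
    (holdsOn_of_leafOK hLne hRne (by norm_num) (by norm_num) hLq (hRqg 4) hNn c57)

end Vale.Agent.Lib.P154Neg.A4
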