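import Vale.Agent.Lib.P154Neg.A4.RayAll

/-!
# Pieces of the merge inequality
-/

namespace Vale.Agent.Lib.P154Neg.A4

open Vale.Agent.Lib.P154 Vale.Agent.Lib.P154GW Vale.Agent.Lib.P154K Tp

theorem c58 : leafOK 290 30 334 (⟨1, 1, -2, 2, 2, -4, 5, -1, -4, 12⟩ : Trg) (⟨-9, 6, 3, -8, 4, 4, -5, 4, 1, 96⟩ : Trg) Lq 12 5 67108864 Rq
    ⟨[(0, 796740052709), (1, -3981566890473), (2, 8008729408808), (3, -8096703867104), (4, 4110871558724), (5, -838003210458)], 13696, 14976, 16256, 16384, 8, 8⟩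
    ⟨[(0, 101661936610), (1, -422365475430), (2, 706587036582), (3, -594362603618), (4, 251183013760), (5, -42636886016)], 17024, 18048, 19072, 16384, 2, 2⟩
    ⟨[(0, 418378841379), (1, -1975637640381), (2, 3756224356018), (3, -3590574842968), (4, 1724206779904), (5, -332530384896)], 14848, 15872, 16896, 16384, 4, 2⟩ = true := by
  decide +kernel

theorem l58 : HoldsOn Lq Rq (Trg.right (Trg.left (chamber 1 1))) (Trg.right (Trg.right (Trg.right (Trg.right (chamberNR 1 4))))) :=
  HoldsOn.congrT (by decide +kernel) (by decide +kernel)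
    (holdsOn_of_leafOK hLne hRne (by norm_num) (by norm_num) hLq (hRqg 5) hNn c58)

theorem c59 : leafOK 283 31 297 (⟨1, 1, -2, 5, -1, -4, 0, 0, 0, 24⟩ : Trg) (⟨-4, 2, 2, -5, 4, 1, -8, 4, 4, 96⟩ : Trg) Lq 12 4 67108864 Rq
    ⟨[(0, 119531841317), (1, -448352547372), (2, 634919011678), (3, -401901113548), (4, 95869916789)], 15104, 16384, 16385, 16384, 4, 1⟩
    ⟨[(0, 74903470290), (1, -269451374122), (2, 365979816977), (3, -222212759788), (4, 50847955507)], 16383, 16384, 17408, 16384, 1, 4⟩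
    ⟨[(0, 91548937391), (1, -335621834461), (2, 464618534913), (3, -287560683047), (4, 67082154068)], 16128, 16384, 16640, 16384, 1, 2⟩ = true := by
  decide +kernel

theorem l59 : HoldsOn Lq Rq (Trg.left (Trg.right (Trg.left (Trg.left (chamber 1 1))))) (Trg.left (Trg.left (Trg.right (Trg.right (chamberNR 1 4))))) :=
  HoldsOn.congrT (by decide +kernel) (by decide +kernel)
    (holdsOn_of_leafOK hLne hRne (by norm_num) (by norm_num) hLq (hRqg 4) hNn c59)

end Vale.Agent.Lib.P154Neg.A4
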