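import Vale.Agent.Lib.P154Neg.A4.RayAll

/-!
# Pieces of the merge inequality
-/

namespace Vale.Agent.Lib.P154Neg.A4

open Vale.Agent.Lib.P154 Vale.Agent.Lib.P154GW Vale.Agent.Lib.P154K Tp

theorem c6 : leafOK 287 29 371 (⟨4, -2, -2, 0, 0, 0, 5, -1, -4, 12⟩ : Trg) (⟨-1, -1, 2, -2, -2, 4, -5, 1, 4, 48⟩ : Trg) Lq 12 6 67108864 Rq
    ⟨[(0, 2125818053940), (1, -12624187730838), (2, 31415446219900), (3, -41891119137400), (4, 31544416667340), (5, -12710089620842), (6, 2139782656764)], 12800, 16384, 16385, 16384, 16, 1⟩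
    ⟨[(0, 690956730761), (1, -3727433263040), (2, 8433200439754), (3, -10231958801224), (4, 7015782300997), (5, -2575923176016), (6, 395442877632)], 15360, 16384, 18176, 16384, 1, 4⟩
    ⟨[(0, 465468059388), (1, -2421527078605), (2, 5282971573784), (3, -6180389087280), (4, 4085714531155), (5, -1446180208221), (6, 214009318643)], 16383, 16384, 18944, 16384, 1, 8⟩ = true := by
  decide +kernel

theorem l6 : HoldsOn Lq Rq (Trg.right (Trg.right (chamber 1 1))) (Trg.right (Trg.left (chamberN 1 4))) :=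
  HoldsOn.congrT (by decide +kernel) (by decide +kernel)
    (holdsOn_of_leafOK hLne hRne (by norm_num) (by norm_num) hLq (hRqg 6) hNn c6)

theorem c7 : leafOK 286 29 371 (⟨4, -2, -2, 0, 0, 0, 5, -1, -4, 12⟩ : Trg) (⟨-4, 2, 2, 0, 0, 0, -5, 1, 4, 48⟩ : Trg) Lq 12 6 67108864 Rq
    ⟨[(0, 2125818053940), (1, -12624187730838), (2, 31415446219900), (3, -41891119137400), (4, 31544416667340), (5, -12710089620842), (6, 2139782656764)], 12800, 16384, 16385, 16384, 16, 1⟩
    ⟨[(0, 519851853062), (1, -2734577592962), (2, 6033495464624), (3, -7139629955417), (4, 4775042022336), (5, -1710258339791), (6, 256143657012)], 16383, 16384, 18432, 16384, 1, 8⟩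
    ⟨[(0, 519851853062), (1, -2734577592962), (2, 6033495464624), (3, -7139629955417), (4, 4775042022336), (5, -1710258339791), (6, 256143657012)], 16383, 16384, 18432, 16384, 1, 8⟩ = true := by
  decide +kernel

theorem l7 : HoldsOn Lq Rq (Trg.right (Trg.right (chamber 1 1))) (Trg.right (Trg.right (chamberN 1 4))) :=
  HoldsOn.congrT (by decide +kernel) (by decide +kernel)
    (holdsOn_of_leafOK hLne hRne (by norm_num) (by norm_num) hLq (hRqg 6) hNn c7)

end Vale.Agent.Lib.P154Neg.A4
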