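import Vale.Agent.Lib.P154Neg.A4.RayAll

/-!
# Pieces of the merge inequality
-/

namespace Vale.Agent.Lib.P154Neg.A4

open Vale.Agent.Lib.P154 Vale.Agent.Lib.P154GW Vale.Agent.Lib.P154K Tp

theorem c60 : leafOK 301 32 313 (⟨7, 1, -8, 10, -2, -8, 2, 2, -4, 48⟩ : Trg) (⟨-5, 1, 4, -10, 2, 8, -8, 4, 4, 96⟩ : Trg) Lq 12 4 67108864 Rq
    ⟨[(0, 186742568216), (1, -729150142986), (2, 1074764993804), (3, -708060851693), (4, 175770694492)], 14592, 15360, 16128, 16384, 4, 8⟩
    ⟨[(0, 57693786141), (1, -202760243969), (2, 269071013184), (3, -159631490010), (4, 35694031910)], 16704, 17088, 17472, 16384, 1, 2⟩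
    ⟨[(0, 74127761593), (1, -266383142597), (2, 361431471196), (3, -219217817201), (4, 50108836548)], 16128, 16704, 17280, 16384, 2, 4⟩ = true := by
  decide +kernel

theorem l60 : HoldsOn Lq Rq (Trg.right (Trg.right (Trg.right (Trg.left (Trg.left (chamber 1 1)))))) (Trg.right (Trg.right (Trg.right (chamberN 1 4)))) :=
  HoldsOn.congrT (by decide +kernel) (by decide +kernel)
    (holdsOn_of_leafOK hLne hRne (by norm_num) (by norm_num) hLq (hRqg 4) hNn c60)

theorem c61 : leafOK 325 33 312 (⟨11, 5, -16, 6, 6, -12, 8, 8, -16, 48⟩ : Trg) (⟨-23, 7, 16, -18, 6, 12, -20, 4, 16, 192⟩ : Trg) Lq 12 4 67108864 Rq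
    ⟨[(0, 340339995918), (1, -1403686996507), (2, 2185569039437), (3, -1521014232342), (4, 398873073999)], 13856, 14544, 15232, 16384, 4, 8⟩
    ⟨[(0, 21163590601), (1, -67868613474), (2, 82176798943), (3, -44480262417), (4, 9073633775)], 18112, 18720, 19328, 16384, 1, 2⟩
    ⟨[(0, 121657251149), (1, -457421893059), (2, 649388627522), (3, -412133990429), (4, 98577113731)], 15488, 15968, 16448, 16384, 4, 4⟩ = true := by
  decide +kernel

theorem l61 : HoldsOn Lq Rq (Trg.left (Trg.right (Trg.left (Trg.right (Trg.left (chamber 1 1)))))) (Trg.left (Trg.right (Trg.left (Trg.left (Trg.right (chamberN 1 4)))))) :=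
  HoldsOn.congrT (by decide +kernel) (by decide +kernel)
    (holdsOn_of_leafOK hLne hRne (by norm_num) (by norm_num) hLq (hRqg 4) hNn c61)

end Vale.Agent.Lib.P154Neg.A4
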