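import Vale.Agent.Lib.P154Neg.A4.RayAll

/-!
# Pieces of the merge inequality
-/

namespace Vale.Agent.Lib.P154Neg.A4

open Vale.Agent.Lib.P154 Vale.Agent.Lib.P154GW Vale.Agent.Lib.P154K Tp

theorem c62 : leafOK 310 32 313 (⟨10, 4, -14, 11, 5, -16, 14, 2, -16, 48⟩ : Trg) (⟨-9, 3, 6, -13, 5, 8, -8, 4, 4, 96⟩ : Trg) Lq 12 4 67108864 Rq
    ⟨[(0, 463620687728), (1, -1963082646935), (2, 3137076400310), (3, -2240066815266), (4, 602567349824)], 13184, 14144, 15104, 16384, 8, 8⟩
    ⟨[(0, 19100572781), (1, -60666182781), (2, 72748854151), (3, -38996190446), (4, 7877578295)], 18176, 18896, 19616, 16384, 1, 2⟩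
    ⟨[(0, 106645000656), (1, -396276565630), (2, 556004223666), (3, -348752086785), (4, 82446537183)], 15744, 16160, 16576, 16384, 2, 4⟩ = true := by
  decide +kernel

theorem l62 : HoldsOn Lq Rq (Trg.left (Trg.right (Trg.right (Trg.left (Trg.right (Trg.left (chamber 1 1))))))) (Trg.left (Trg.left (Trg.left (Trg.right (chamberN 1 4))))) :=
  HoldsOn.congrT (by decide +kernel) (by decide +kernel)
    (holdsOn_of_leafOK hLne hRne (by norm_num) (by norm_num) hLq (hRqg 4) hNn c62)

theorem c63 : leafOK 326 33 313 (⟨23, 5, -28, 28, 4, -32, 26, 2, -28, 96⟩ : Trg) (⟨-9, 3, 6, -13, 5, 8, -8, 4, 4, 96⟩ : Trg) Lq 12 4 67108864 Rq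
    ⟨[(0, 499265098064), (1, -2129640420354), (2, 3428749920980), (3, -2466936437084), (4, 668700442775)], 13184, 14048, 14912, 16384, 8, 8⟩
    ⟨[(0, 19639077701), (1, -62542933466), (2, 75201127447), (3, -40420036018), (4, 8187536067)], 18176, 18848, 19520, 16384, 1, 2⟩
    ⟨[(0, 92622894805), (1, -339871114685), (2, 470922211217), (3, -291716031595), (4, 68109149165)], 16064, 16368, 16672, 16384, 1, 1⟩ = true := by
  decide +kernel

theorem l63 : HoldsOn Lq Rq (Trg.right (Trg.left (Trg.right (Trg.right (Trg.right (Trg.right (Trg.left (chamber 1 1)))))))) (Trg.left (Trg.left (Trg.left (Trg.right (chamberN 1 4))))) :=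
  HoldsOn.congrT (by decide +kernel) (by decide +kernel)
    (holdsOn_of_leafOK hLne hRne (by norm_num) (by norm_num) hLq (hRqg 4) hNn c63)

end Vale.Agent.Lib.P154Neg.A4
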