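import Vale.Agent.Lib.P154Neg.A4.RayAll

/-!
# Pieces of the merge inequality
-/

namespace Vale.Agent.Lib.P154Neg.A4

open Vale.Agent.Lib.P154 Vale.Agent.Lib.P154GW Vale.Agent.Lib.P154K Tp

theorem c64 : leafOK 331 32 334 (⟨17, -1, -16, 20, -4, -16, 12, 0, -12, 48⟩ : Trg) (⟨-9, 3, 6, -13, 5, 8, -8, 4, 4, 96⟩ : Trg) Lq 12 5 67108864 Rq
    ⟨[(0, 2635265325156), (1, -14648946816096), (2, 32764631779489), (3, -36820192538884), (4, 20772896552281), (5, -4703768090470)], 12032, 13440, 14848, 16384, 8, 8⟩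
    ⟨[(0, 69773452870), (1, -280400013627), (2, 453818287198), (3, -369371321097), (4, 151065644196), (5, -24819482874)], 17920, 18672, 19424, 16384, 1, 1⟩
    ⟨[(0, 185027808518), (1, -812473835562), (2, 1436794492927), (3, -1277773558897), (4, 570993620144), (5, -102501418248)], 16384, 17088, 17792, 16384, 2, 2⟩ = true := by
  decide +kernel

theorem l64 : HoldsOn Lq Rq (Trg.right (Trg.left (Trg.right (Trg.right (Trg.left (chamber 1 1)))))) (Trg.left (Trg.left (Trg.left (Trg.right (chamberN 1 4))))) :=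
  HoldsOn.congrT (by decide +kernel) (by decide +kernel)
    (holdsOn_of_leafOK hLne hRne (by norm_num) (by norm_num) hLq (hRqg 5) hNn c64)

theorem c65 : leafOK 332 32 350 (⟨17, -1, -16, 20, -4, -16, 12, 0, -12, 48⟩ : Trg) (⟨-9, 3, 6, -10, 2, 8, -13, 5, 8, 96⟩ : Trg) Lq 12 5 67108864 Rq
    ⟨[(0, 3074629809066), (1, -17359919381651), (2, 39448202391587), (3, -45049996363381), (4, 25834314867496), (5, -5947569861514)], 12032, 13248, 14464, 16384, 8, 16⟩
    ⟨[(0, 69773452870), (1, -280400013627), (2, 453818287198), (3, -369371321097), (4, 151065644196), (5, -24819482874)], 17920, 18672, 19424, 16384, 1, 1⟩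
    ⟨[(0, 144884696615), (1, -622240575799), (2, 1076242706616), (3, -936136693463), (4, 409156641127), (5, -71839675764)], 16768, 17472, 18176, 16384, 1, 1⟩ = true := by
  decide +kernel

theorem l65 : HoldsOn Lq Rq (Trg.right (Trg.left (Trg.right (Trg.right (Trg.left (chamber 1 1)))))) (Trg.right (Trg.left (Trg.left (Trg.right (chamberN 1 4))))) :=
  HoldsOn.congrT (by decide +kernel) (by decide +kernel)
    (holdsOn_of_leafOK hLne hRne (by norm_num) (by norm_num) hLq (hRqg 5) hNn c65)

end Vale.Agent.Lib.P154Neg.A4
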