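import Vale.Agent.Lib.P154Neg.A4.RayAll

/-!
# Pieces of the merge inequality
-/

namespace Vale.Agent.Lib.P154Neg.A4

open Vale.Agent.Lib.P154 Vale.Agent.Lib.P154GW Vale.Agent.Lib.P154K Tp

theorem c66 : leafOK 328 31 373 (⟨5, -1, -4, 2, 2, -4, 10, -2, -8, 24⟩ : Trg) (⟨-13, 5, 8, -16, 8, 8, -8, 4, 4, 96⟩ : Trg) Lq 12 6 67108864 Rq
    ⟨[(0, 7018660145407), (1, -46173012476880), (2, 127149473261736), (3, -187417510658928), (4, 155833031725479), (5, -69257871718952), (6, 12847306704341)], 11264, 13568, 15872, 16384, 16, 16⟩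
    ⟨[(0, 170477054377), (1, -809233144788), (2, 1610866709958), (3, -1719434126772), (4, 1037098995864), (5, -334929836125), (6, 45221271184)], 17408, 18944, 20480, 16384, 2, 2⟩
    ⟨[(0, 738784568645), (1, -4009437315131), (2, 9125782384613), (3, -11138824386398), (4, 7683509274010), (5, -2838054908707), (6, 438307492312)], 15360, 16576, 17792, 16384, 2, 4⟩ = true := by
  decide +kernel

theorem l66 : HoldsOn Lq Rq (Trg.left (Trg.left (Trg.left (chamber 1 1)))) (Trg.right (Trg.left (Trg.right (chamberN 1 4)))) :=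
  HoldsOn.congrT (by decide +kernel) (by decide +kernel)
    (holdsOn_of_leafOK hLne hRne (by norm_num) (by norm_num) hLq (hRqg 6) hNn c66)

theorem c67 : leafOK 286 31 312 (⟨5, -1, -4, 0, 0, 0, 2, 2, -4, 24⟩ : Trg) (⟨-13, 5, 8, -16, 8, 8, -8, 4, 4, 96⟩ : Trg) Lq 12 4 67108864 Rq
    ⟨[(0, 161033025939), (1, -617044134048), (2, 892028400173), (3, -576049868998), (4, 140099685798)], 13824, 16384, 16385, 16384, 8, 1⟩
    ⟨[(0, 62039923378), (1, -218870819670), (2, 291419927784), (3, -173380457110), (4, 38858534482)], 16383, 16384, 18432, 16384, 1, 4⟩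
    ⟨[(0, 97526535438), (1, -359057185280), (2, 499065443395), (3, -310058839742), (4, 72591155053)], 15360, 16384, 17088, 16384, 1, 2⟩ = true := by
  decide +kernel

theorem l67 : HoldsOn Lq Rq (Trg.right (Trg.left (Trg.left (chamber 1 1)))) (Trg.right (Trg.left (Trg.right (chamberN 1 4)))) :=
  HoldsOn.congrT (by decide +kernel) (by decide +kernel)
    (holdsOn_of_leafOK hLne hRne (by norm_num) (by norm_num) hLq (hRqg 4) hNn c67)

end Vale.Agent.Lib.P154Neg.A4
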