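import Vale.Agent.Lib.P154Neg.A4.RayAll

/-!
# Pieces of the merge inequality
-/

namespace Vale.Agent.Lib.P154Neg.A4

open Vale.Agent.Lib.P154 Vale.Agent.Lib.P154GW Vale.Agent.Lib.P154K Tp

theorem c68 : leafOK 307 31 316 (⟨7, 1, -8, 2, 2, -4, 4, 4, -8, 24⟩ : Trg) (⟨-9, 6, 3, -5, 4, 1, -10, 8, 2, 96⟩ : Trg) Lq 12 5 67108864 Rq
    ⟨[(0, 559034752023), (1, -2712743786834), (2, 5300895520293), (3, -5208605132293), (4, 2571400075851), (5, -509914325719)], 14656, 15456, 16256, 16384, 4, 2⟩
    ⟨[(0, 94175230832), (1, -388362043540), (2, 644836712885), (3, -538315840254), (4, 225758247174), (5, -38025315007)], 17024, 18176, 19328, 16384, 2, 2⟩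
    ⟨[(0, 720164572681), (1, -3576231559268), (2, 7151448965302), (3, -7191147562298), (4, 3633142131843), (5, -737309623351)], 14336, 15104, 15872, 16384, 4, 2⟩ = true := by
  decide +kernel

theorem l68 : HoldsOn Lq Rq (Trg.left (Trg.right (Trg.left (chamber 1 1)))) (Trg.left (Trg.right (Trg.right (Trg.right (chamberNR 1 4))))) :=
  HoldsOn.congrT (by decide +kernel) (by decide +kernel)
    (holdsOn_of_leafOK hLne hRne (by norm_num) (by norm_num) hLq (hRqg 5) hNn c68)

theorem c69 : leafOK 308 31 334 (⟨7, 1, -8, 10, -2, -8, 2, 2, -4, 24⟩ : Trg) (⟨-9, 6, 3, -5, 4, 1, -10, 8, 2, 96⟩ : Trg) Lq 12 5 67108864 Rq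
    ⟨[(0, 836260175537), (1, -4195388331331), (2, 8471110943954), (3, -8596254097041), (4, 4380515575329), (5, -896177230680)], 13568, 14912, 16256, 16384, 8, 8⟩
    ⟨[(0, 84072137861), (1, -342861879450), (2, 562913765131), (3, -464603044037), (4, 192612665407), (5, -32066709513)], 17024, 18368, 19712, 16384, 2, 2⟩
    ⟨[(0, 455559222019), (1, -2171212817801), (2, 4167492020291), (3, -4022750206499), (4, 1951153332735), (5, -380174441864)], 15104, 15744, 16384, 16384, 2, 2⟩ = true := by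
  decide +kernel

theorem l69 : HoldsOn Lq Rq (Trg.right (Trg.right (Trg.left (chamber 1 1)))) (Trg.left (Trg.right (Trg.right (Trg.right (chamberNR 1 4))))) :=
  HoldsOn.congrT (by decide +kernel) (by decide +kernel)
    (holdsOn_of_leafOK hLne hRne (by norm_num) (by norm_num) hLq (hRqg 5) hNn c69)

end Vale.Agent.Lib.P154Neg.A4
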