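import Vale.Agent.Lib.P154Neg.A4.RayAll

/-!
# Pieces of the merge inequality
-/

namespace Vale.Agent.Lib.P154Neg.A4

open Vale.Agent.Lib.P154 Vale.Agent.Lib.P154GW Vale.Agent.Lib.P154K Tp

theorem c70 : leafOK 324 33 313 (⟨22, 4, -26, 18, 6, -24, 23, 5, -28, 96⟩ : Trg) (⟨-9, 3, 6, -13, 5, 8, -8, 4, 4, 96⟩ : Trg) Lq 12 4 67108864 Rq
    ⟨[(0, 357417927175), (1, -1480182323332), (2, 2314016512142), (3, -1616842575335), (4, 425674299444)], 13728, 14480, 15232, 16384, 4, 8⟩
    ⟨[(0, 23593721767), (1, -76410215254), (2, 93433869693), (3, -51073128259), (4, 10521404289)], 17920, 18536, 19152, 16384, 1, 2⟩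
    ⟨[(0, 100965716550), (1, -373435968887), (2, 521559948311), (3, -325668219174), (4, 76645632086)], 16000, 16240, 16480, 16384, 1, 1⟩ = true := by
  decide +kernel

theorem l70 : HoldsOn Lq Rq (Trg.right (Trg.left (Trg.left (Trg.right (Trg.right (Trg.right (Trg.right (Trg.left (chamber 1 1))))))))) (Trg.left (Trg.left (Trg.left (Trg.right (chamberN 1 4))))) :=
  HoldsOn.congrT (by decide +kernel) (by decide +kernel)
    (holdsOn_of_leafOK hLne hRne (by norm_num) (by norm_num) hLq (hRqg 4) hNn c70)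

theorem c71 : leafOK 325 33 313 (⟨22, 4, -26, 23, 5, -28, 26, 2, -28, 96⟩ : Trg) (⟨-9, 3, 6, -13, 5, 8, -8, 4, 4, 96⟩ : Trg) Lq 12 4 67108864 Rq
    ⟨[(0, 440411592607), (1, -1858519921777), (2, 2960574825640), (3, -2107768824642), (4, 565413906407)], 13440, 14208, 14976, 16384, 4, 8⟩
    ⟨[(0, 22711327132), (1, -73310419648), (2, 89350897245), (3, -48683230170), (4, 9996891822)], 18048, 18600, 19152, 16384, 1, 2⟩
    ⟨[(0, 92622894805), (1, -339871114685), (2, 470922211217), (3, -291716031595), (4, 68109149165)], 16064, 16368, 16672, 16384, 1, 1⟩ = true := by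
  decide +kernel

theorem l71 : HoldsOn Lq Rq (Trg.left (Trg.left (Trg.left (Trg.right (Trg.right (Trg.right (Trg.right (Trg.left (chamber 1 1))))))))) (Trg.left (Trg.left (Trg.left (Trg.right (chamberN 1 4))))) :=
  HoldsOn.congrT (by decide +kernel) (by decide +kernel)
    (holdsOn_of_leafOK hLne hRne (by norm_num) (by norm_num) hLq (hRqg 4) hNn c71)

end Vale.Agent.Lib.P154Neg.A4
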