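import Vale.Agent.Lib.P154Neg.A4.RayAll

/-!
# Pieces of the merge inequality
-/

namespace Vale.Agent.Lib.P154Neg.A4

open Vale.Agent.Lib.P154 Vale.Agent.Lib.P154GW Vale.Agent.Lib.P154K Tp

theorem c72 : leafOK 299 32 297 (⟨1, 1, -2, 5, -1, -4, 0, 0, 0, 24⟩ : Trg) (⟨-13, 5, 8, -8, 4, 4, -10, 2, 8, 192⟩ : Trg) Lq 12 4 67108864 Rq
    ⟨[(0, 114686564600), (1, -428751815340), (2, 605186172501), (3, -381856524422), (4, 90802711525)], 15296, 16384, 16385, 16384, 4, 1⟩
    ⟨[(0, 79181368730), (1, -286392601667), (2, 391136059457), (3, -238813155873), (4, 54955438217)], 16383, 16384, 17120, 16384, 1, 4⟩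
    ⟨[(0, 86417893053), (1, -315131237381), (2, 433933442122), (3, -267138111353), (4, 61985122423)], 16224, 16384, 16832, 16384, 1, 4⟩ = true := by
  decide +kernel

theorem l72 : HoldsOn Lq Rq (Trg.left (Trg.right (Trg.left (Trg.left (chamber 1 1))))) (Trg.left (Trg.left (Trg.left (Trg.right (Trg.right (chamberN 1 4)))))) :=
  HoldsOn.congrT (by decide +kernel) (by decide +kernel)
    (holdsOn_of_leafOK hLne hRne (by norm_num) (by norm_num) hLq (hRqg 4) hNn c72)

theorem c73 : leafOK 300 32 297 (⟨1, 1, -2, 2, 2, -4, 5, -1, -4, 24⟩ : Trg) (⟨-13, 5, 8, -8, 4, 4, -10, 2, 8, 192⟩ : Trg) Lq 12 4 67108864 Rq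
    ⟨[(0, 138975057435), (1, -528887154899), (2, 759970554342), (3, -488174783813), (4, 118183443247)], 15296, 15776, 16256, 16384, 4, 4⟩
    ⟨[(0, 63971237319), (1, -226979483787), (2, 304109843354), (3, -182160227348), (4, 41125735660)], 16640, 16928, 17216, 16384, 1, 1⟩
    ⟨[(0, 87802221357), (1, -320572210006), (2, 441951297984), (3, -272388227831), (4, 63274027387)], 16064, 16448, 16832, 16384, 2, 2⟩ = true := by
  decide +kernel

theorem l73 : HoldsOn Lq Rq (Trg.right (Trg.right (Trg.left (Trg.left (chamber 1 1))))) (Trg.left (Trg.left (Trg.left (Trg.right (Trg.right (chamberN 1 4)))))) :=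
  HoldsOn.congrT (by decide +kernel) (by decide +kernel)
    (holdsOn_of_leafOK hLne hRne (by norm_num) (by norm_num) hLq (hRqg 4) hNn c73)

end Vale.Agent.Lib.P154Neg.A4
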