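import Vale.Agent.Lib.P154Neg.A4.RayAll

/-!
# Pieces of the merge inequality
-/

namespace Vale.Agent.Lib.P154Neg.A4

open Vale.Agent.Lib.P154 Vale.Agent.Lib.P154GW Vale.Agent.Lib.P154K Tp

theorem c74 : leafOK 309 31 334 (⟨1, 1, -2, 2, 2, -4, 5, -1, -4, 12⟩ : Trg) (⟨-14, 4, 10, -15, 3, 12, -18, 6, 12, 192⟩ : Trg) Lq 12 5 67108864 Rq
    ⟨[(0, 1112231971568), (1, -5730376409579), (2, 11883816009518), (3, -12387290741787), (4, 6484704912738), (5, -1363020926367)], 13312, 14528, 15744, 16384, 8, 8⟩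
    ⟨[(0, 105433374378), (1, -439934743742), (2, 739296144489), (3, -624783723582), (4, 265317675668), (5, -45261713771)], 17280, 17984, 18688, 16384, 1, 1⟩
    ⟨[(0, 243528755898), (1, -1094868624941), (2, 1981923491289), (3, -1803791788441), (4, 824717490003), (5, -151442214433)], 15616, 16672, 17728, 16384, 2, 2⟩ = true := by
  decide +kernel

theorem l74 : HoldsOn Lq Rq (Trg.right (Trg.left (chamber 1 1))) (Trg.left (Trg.left (Trg.left (Trg.right (Trg.right (Trg.right (chamberN 1 4))))))) :=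
  HoldsOn.congrT (by decide +kernel) (by decide +kernel)
    (holdsOn_of_leafOK hLne hRne (by norm_num) (by norm_num) hLq (hRqg 5) hNn c74)

theorem c75 : leafOK 290 31 313 (⟨1, 1, -2, 2, 2, -4, 5, -1, -4, 12⟩ : Trg) (⟨-14, 4, 10, -10, 2, 8, -15, 3, 12, 192⟩ : Trg) Lq 12 4 67108864 Rq
    ⟨[(0, 285177526279), (1, -1154604770639), (2, 1764084573227), (3, -1204238852316), (4, 309651369277)], 13696, 14784, 15872, 16384, 4, 8⟩
    ⟨[(0, 40093804835), (1, -136238124684), (2, 174786041403), (3, -100239488654), (4, 21664710944)], 17024, 17664, 18304, 16384, 2, 4⟩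
    ⟨[(0, 69722725850), (1, -248810509840), (2, 335163344799), (3, -201778813672), (4, 45770365881)], 15872, 16800, 17728, 16384, 4, 4⟩ = true := by
  decide +kernel

theorem l75 : HoldsOn Lq Rq (Trg.right (Trg.left (chamber 1 1))) (Trg.right (Trg.left (Trg.left (Trg.right (Trg.right (Trg.right (chamberN 1 4))))))) :=
  HoldsOn.congrT (by decide +kernel) (by decide +kernel)
    (holdsOn_of_leafOK hLne hRne (by norm_num) (by norm_num) hLq (hRqg 4) hNn c75)

end Vale.Agent.Lib.P154Neg.A4
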