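import Vale.Agent.Lib.P154Neg.A4.RayAll

/-!
# Pieces of the merge inequality
-/

namespace Vale.Agent.Lib.P154Neg.A4

open Vale.Agent.Lib.P154 Vale.Agent.Lib.P154GW Vale.Agent.Lib.P154K Tp

theorem c76 : leafOK 309 32 313 (⟨3, 3, -6, 4, 4, -8, 7, 1, -8, 24⟩ : Trg) (⟨-22, 14, 8, -23, 16, 7, -26, 16, 10, 192⟩ : Trg) Lq 12 4 67108864 Rq
    ⟨[(0, 295247212615), (1, -1200104469381), (2, 1841088592293), (3, -1262092554863), (4, 325932633301)], 13760, 14736, 15712, 16384, 4, 8⟩
    ⟨[(0, 16023480965), (1, -50090679706), (2, 59121028096), (3, -31192438979), (4, 6202074153)], 18496, 19200, 19904, 16384, 1, 2⟩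
    ⟨[(0, 252384534055), (1, -1013460644690), (2, 1536453058146), (3, -1041207609962), (4, 265900424726)], 14336, 14944, 15552, 16384, 4, 8⟩ = true := by
  decide +kernel

theorem l76 : HoldsOn Lq Rq (Trg.right (Trg.left (Trg.right (Trg.left (chamber 1 1))))) (Trg.left (Trg.right (Trg.right (Trg.left (Trg.left (Trg.right (chamberNR 1 4))))))) :=
  HoldsOn.congrT (by decide +kernel) (by decide +kernel)
    (holdsOn_of_leafOK hLne hRne (by norm_num) (by norm_num) hLq (hRqg 4) hNn c76)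

theorem c77 : leafOK 327 33 312 (⟨10, 4, -14, 11, 5, -16, 14, 2, -16, 48⟩ : Trg) (⟨-23, 7, 16, -18, 6, 12, -20, 4, 16, 192⟩ : Trg) Lq 12 4 67108864 Rq
    ⟨[(0, 511101290061), (1, -2187603049700), (2, 3534884465937), (3, -2553080873111), (4, 694855844810)], 13376, 14016, 14656, 16384, 4, 8⟩
    ⟨[(0, 20857790984), (1, -66824834635), (2, 80841679205), (3, -43721777916), (4, 8912164682)], 18304, 18744, 19184, 16384, 1, 1⟩
    ⟨[(0, 81504688591), (1, -295519504308), (2, 404580454625), (3, -247614494444), (4, 57115964457)], 16096, 16560, 17024, 16384, 2, 4⟩ = true := by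
  decide +kernel

theorem l77 : HoldsOn Lq Rq (Trg.left (Trg.right (Trg.right (Trg.left (Trg.right (Trg.left (chamber 1 1))))))) (Trg.left (Trg.right (Trg.left (Trg.left (Trg.right (chamberN 1 4)))))) :=
  HoldsOn.congrT (by decide +kernel) (by decide +kernel)
    (holdsOn_of_leafOK hLne hRne (by norm_num) (by norm_num) hLq (hRqg 4) hNn c77)

end Vale.Agent.Lib.P154Neg.A4
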