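import Vale.Agent.Lib.P154Neg.A4.RayAll

/-!
# Pieces of the merge inequality
-/

namespace Vale.Agent.Lib.P154Neg.A4

open Vale.Agent.Lib.P154 Vale.Agent.Lib.P154GW Vale.Agent.Lib.P154K Tp

theorem c78 : leafOK 343 34 312 (⟨23, 5, -28, 28, 4, -32, 26, 2, -28, 96⟩ : Trg) (⟨-23, 7, 16, -18, 6, 12, -20, 4, 16, 192⟩ : Trg) Lq 12 4 67108864 Rq
    ⟨[(0, 550953305966), (1, -2375329404990), (2, 3866411235615), (3, -2813226729914), (4, 771386293490)], 13376, 13920, 14464, 16384, 4, 8⟩
    ⟨[(0, 22383563309), (1, -72177720208), (2, 87883585709), (3, -47838796686), (4, 9814731864)], 18208, 18624, 19040, 16384, 1, 1⟩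
    ⟨[(0, 71395491721), (1, -255845179284), (2, 346194878921), (3, -209429658583), (4, 47751575898)], 16432, 16760, 17088, 16384, 1, 1⟩ = true := by
  decide +kernel

theorem l78 : HoldsOn Lq Rq (Trg.right (Trg.left (Trg.right (Trg.right (Trg.right (Trg.right (Trg.left (chamber 1 1)))))))) (Trg.left (Trg.right (Trg.left (Trg.left (Trg.right (chamberN 1 4)))))) :=
  HoldsOn.congrT (by decide +kernel) (by decide +kernel)
    (holdsOn_of_leafOK hLne hRne (by norm_num) (by norm_num) hLq (hRqg 4) hNn c78)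

theorem c79 : leafOK 325 33 313 (⟨7, 7, -14, 11, 5, -16, 6, 6, -12, 48⟩ : Trg) (⟨-23, 7, 16, -26, 10, 16, -18, 6, 12, 192⟩ : Trg) Lq 12 4 67108864 Rq
    ⟨[(0, 353061339825), (1, -1460643399178), (2, 2281166449911), (3, -1592304534335), (4, 418803198635)], 13760, 14496, 15232, 16384, 4, 8⟩
    ⟨[(0, 19462573908), (1, -61915132138), (2, 74364412453), (3, -39924792879), (4, 8077693693)], 18112, 18864, 19616, 16384, 1, 2⟩
    ⟨[(0, 147767904366), (1, -565577597900), (2, 817377029809), (3, -528090096782), (4, 128589896274)], 15264, 15688, 16112, 16384, 2, 4⟩ = true := by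
  decide +kernel

theorem l79 : HoldsOn Lq Rq (Trg.left (Trg.left (Trg.right (Trg.left (Trg.right (Trg.left (chamber 1 1))))))) (Trg.right (Trg.right (Trg.left (Trg.left (Trg.right (chamberN 1 4)))))) :=
  HoldsOn.congrT (by decide +kernel) (by decide +kernel)
    (holdsOn_of_leafOK hLne hRne (by norm_num) (by norm_num) hLq (hRqg 4) hNn c79)

end Vale.Agent.Lib.P154Neg.A4
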