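import Vale.Agent.Lib.P154Neg.A4.RayAll

/-!
# Pieces of the merge inequality
-/

namespace Vale.Agent.Lib.P154Neg.A4

open Vale.Agent.Lib.P154 Vale.Agent.Lib.P154GW Vale.Agent.Lib.P154K Tp

theorem c8 : leafOK 283 29 354 (⟨1, 1, -2, 5, -1, -4, 0, 0, 0, 12⟩ : Trg) (⟨-1, 2, -1, -5, 4, 1, 0, 0, 0, 48⟩ : Trg) Lq 12 6 67108864 Rq
    ⟨[(0, 1594759342604), (1, -9257552704006), (2, 22530159262143), (3, -29394642554326), (4, 21666235848412), (5, -8548832767324), (6, 1409940681361)], 13568, 16384, 16640, 16384, 8, 1⟩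
    ⟨[(0, 396288781334), (1, -2027835740187), (2, 4350082492324), (3, -5002228103008), (4, 3249341877050), (5, -1129742550753), (6, 164160352104)], 16383, 16384, 19712, 16384, 1, 4⟩
    ⟨[(0, 1067762065158), (1, -6004866145642), (2, 14167922319209), (3, -17932637313839), (4, 12831735316749), (5, -4918348780867), (6, 788499648096)], 15360, 16384, 16385, 16384, 4, 1⟩ = true := by
  decide +kernel

theorem l8 : HoldsOn Lq Rq (Trg.left (Trg.left (chamber 1 1))) (Trg.left (Trg.left (chamberNR 1 4))) :=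
  HoldsOn.congrT (by decide +kernel) (by decide +kernel)
    (holdsOn_of_leafOK hLne hRne (by norm_num) (by norm_num) hLq (hRqg 6) hNn c8)

theorem c9 : leafOK 284 29 371 (⟨1, 1, -2, 5, -1, -4, 0, 0, 0, 12⟩ : Trg) (⟨-1, 2, -1, -2, 4, -2, -5, 4, 1, 48⟩ : Trg) Lq 12 6 67108864 Rq
    ⟨[(0, 1487402502464), (1, -8576522190304), (2, 20731957637002), (3, -26864932215534), (4, 19666363026146), (5, -7706423166274), (6, 1262221515364)], 13568, 16384, 16896, 16384, 4, 2⟩
    ⟨[(0, 396288781334), (1, -2027835740187), (2, 4350082492324), (3, -5002228103008), (4, 3249341877050), (5, -1129742550753), (6, 164160352104)], 16383, 16384, 19712, 16384, 1, 4⟩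
    ⟨[(0, 1390512953834), (1, -7994639210228), (2, 19278216315951), (3, -24931139752705), (4, 18221946144518), (5, -7132079115901), (6, 1167249773395)], 14336, 16384, 16385, 16384, 16, 1⟩ = true := by
  decide +kernel

theorem l9 : HoldsOn Lq Rq (Trg.left (Trg.left (chamber 1 1))) (Trg.right (Trg.left (chamberNR 1 4))) :=
  HoldsOn.congrT (by decide +kernel) (by decide +kernel)
    (holdsOn_of_leafOK hLne hRne (by norm_num) (by norm_num) hLq (hRqg 6) hNn c9)

end Vale.Agent.Lib.P154Neg.A4
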