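import Vale.Agent.Lib.P154Neg.A4.RayAll

/-!
# Pieces of the merge inequality
-/

namespace Vale.Agent.Lib.P154Neg.A4

open Vale.Agent.Lib.P154 Vale.Agent.Lib.P154GW Vale.Agent.Lib.P154K Tp

theorem c80 : leafOK 326 33 312 (⟨7, 7, -14, 8, 8, -16, 11, 5, -16, 48⟩ : Trg) (⟨-23, 7, 16, -26, 10, 16, -18, 6, 12, 192⟩ : Trg) Lq 12 4 67108864 Rq
    ⟨[(0, 379611750540), (1, -1581593155632), (2, 2487716908835), (3, -1749023494963), (4, 463379642712)], 13760, 14400, 15040, 16384, 4, 8⟩
    ⟨[(0, 17404254826), (1, -54824058913), (2, 65204944390), (3, -34667357807), (4, 6946239565)], 18400, 19056, 19712, 16384, 1, 2⟩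
    ⟨[(0, 156361138626), (1, -601409874472), (2, 873400743973), (3, -567015709796), (4, 138730854914)], 15104, 15608, 16112, 16384, 4, 4⟩ = true := by
  decide +kernel

theorem l80 : HoldsOn Lq Rq (Trg.right (Trg.left (Trg.right (Trg.left (Trg.right (Trg.left (chamber 1 1))))))) (Trg.right (Trg.right (Trg.left (Trg.left (Trg.right (chamberN 1 4)))))) :=
  HoldsOn.congrT (by decide +kernel) (by decide +kernel)
    (holdsOn_of_leafOK hLne hRne (by norm_num) (by norm_num) hLq (hRqg 4) hNn c80)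

theorem c81 : leafOK 283 31 298 (⟨1, 1, -2, 5, -1, -4, 0, 0, 0, 24⟩ : Trg) (⟨-5, 4, 1, -10, 8, 2, -8, 4, 4, 96⟩ : Trg) Lq 12 4 67108864 Rq
    ⟨[(0, 122922291616), (1, -462084114573), (2, 655772983286), (3, -415976156357), (4, 99432104892)], 14976, 16384, 16385, 16384, 4, 1⟩
    ⟨[(0, 66464333485), (1, -236202424056), (2, 316868024320), (3, -189979477452), (4, 42916652567)], 16383, 16384, 18048, 16384, 1, 4⟩
    ⟨[(0, 96378130362), (1, -354915655527), (2, 493524808631), (3, -306808539169), (4, 71888364567)], 15872, 16384, 16640, 16384, 1, 2⟩ = true := by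
  decide +kernel

theorem l81 : HoldsOn Lq Rq (Trg.left (Trg.right (Trg.left (Trg.left (chamber 1 1))))) (Trg.right (Trg.right (Trg.right (chamberNR 1 4)))) :=
  HoldsOn.congrT (by decide +kernel) (by decide +kernel)
    (holdsOn_of_leafOK hLne hRne (by norm_num) (by norm_num) hLq (hRqg 4) hNn c81)

end Vale.Agent.Lib.P154Neg.A4
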