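import Vale.Agent.Lib.P154Neg.A4.RayAll

/-!
# Pieces of the merge inequality
-/

namespace Vale.Agent.Lib.P154Neg.A4

open Vale.Agent.Lib.P154 Vale.Agent.Lib.P154GW Vale.Agent.Lib.P154K Tp

theorem c82 : leafOK 285 31 312 (⟨1, 1, -2, 2, 2, -4, 5, -1, -4, 24⟩ : Trg) (⟨-5, 4, 1, -10, 8, 2, -8, 4, 4, 96⟩ : Trg) Lq 12 4 67108864 Rq
    ⟨[(0, 152134174015), (1, -583342745352), (2, 844459673107), (3, -546423715423), (4, 133239733828)], 14976, 15648, 16320, 16384, 4, 8⟩
    ⟨[(0, 48049124517), (1, -165956066862), (2, 216410155722), (3, -126146826207), (4, 27710680971)], 16704, 17376, 18048, 16384, 2, 4⟩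
    ⟨[(0, 119084825305), (1, -446646150639), (2, 632473014015), (3, -400340011876), (4, 95495433644)], 15360, 16000, 16640, 16384, 4, 4⟩ = true := by
  decide +kernel

theorem l82 : HoldsOn Lq Rq (Trg.right (Trg.right (Trg.left (Trg.left (chamber 1 1))))) (Trg.right (Trg.right (Trg.right (chamberNR 1 4)))) :=
  HoldsOn.congrT (by decide +kernel) (by decide +kernel)
    (holdsOn_of_leafOK hLne hRne (by norm_num) (by norm_num) hLq (hRqg 4) hNn c82)

theorem c83 : leafOK 301 32 312 (⟨7, 1, -8, 2, 2, -4, 4, 4, -8, 48⟩ : Trg) (⟨-9, 3, 6, -5, 1, 4, -10, 2, 8, 96⟩ : Trg) Lq 12 4 67108864 Rq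
    ⟨[(0, 162717130867), (1, -627972218522), (2, 915021099322), (3, -595995010092), (4, 146296165148)], 14976, 15552, 16128, 16384, 4, 8⟩
    ⟨[(0, 54259724017), (1, -189591395853), (2, 250135377689), (3, -147531342205), (4, 32794726519)], 16704, 17184, 17664, 16384, 2, 2⟩
    ⟨[(0, 93634629492), (1, -343892492008), (2, 476915556628), (3, -295685534179), (4, 69094949020)], 16000, 16352, 16704, 16384, 1, 2⟩ = true := by
  decide +kernel

theorem l83 : HoldsOn Lq Rq (Trg.left (Trg.right (Trg.right (Trg.left (Trg.left (chamber 1 1)))))) (Trg.left (Trg.right (Trg.right (Trg.right (chamberN 1 4))))) :=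
  HoldsOn.congrT (by decide +kernel) (by decide +kernel)
    (holdsOn_of_leafOK hLne hRne (by norm_num) (by norm_num) hLq (hRqg 4) hNn c83)

end Vale.Agent.Lib.P154Neg.A4
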