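import Vale.Agent.Lib.P154Neg.A4.RayAll

/-!
# Pieces of the merge inequality
-/

namespace Vale.Agent.Lib.P154Neg.A4

open Vale.Agent.Lib.P154 Vale.Agent.Lib.P154GW Vale.Agent.Lib.P154K Tp

theorem c84 : leafOK 328 33 328 (⟨17, -1, -16, 12, 0, -12, 14, 2, -16, 48⟩ : Trg) (⟨-22, 8, 14, -18, 6, 12, -23, 7, 16, 192⟩ : Trg) Lq 12 4 67108864 Rq
    ⟨[(0, 668236638374), (1, -2928058747477), (2, 4842953235200), (3, -3579807523173), (4, 996980386718)], 12896, 13680, 14464, 16384, 8, 16⟩
    ⟨[(0, 24388087885), (1, -79232064702), (2, 97192373399), (3, -53297720484), (4, 11015093868)], 17920, 18480, 19040, 16384, 1, 2⟩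
    ⟨[(0, 63659372302), (1, -225715415744), (2, 302192612820), (3, -180870370926), (4, 40800908249)], 16512, 16936, 17360, 16384, 2, 2⟩ = true := by
  decide +kernel

theorem l84 : HoldsOn Lq Rq (Trg.left (Trg.left (Trg.right (Trg.right (Trg.left (chamber 1 1)))))) (Trg.right (Trg.right (Trg.right (Trg.left (Trg.left (Trg.right (chamberN 1 4))))))) :=
  HoldsOn.congrT (by decide +kernel) (by decide +kernel)
    (holdsOn_of_leafOK hLne hRne (by norm_num) (by norm_num) hLq (hRqg 4) hNn c84)

theorem c85 : leafOK 313 30 373 (⟨4, -2, -2, 5, -1, -4, 8, -4, -4, 12⟩ : Trg) (⟨-5, 4, 1, -2, 4, -2, -10, 8, 2, 96⟩ : Trg) Lq 12 6 67108864 Rq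
    ⟨[(0, 6366752585545), (1, -41453891773279), (2, 112956689581501), (3, -164716791359906), (4, 135466124097809), (5, -59538806148773), (6, 10919992687868)], 11264, 13696, 16128, 16384, 16, 16⟩
    ⟨[(0, 170477054377), (1, -809233144788), (2, 1610866709958), (3, -1719434126772), (4, 1037098995864), (5, -334929836125), (6, 45221271184)], 17408, 18944, 20480, 16384, 2, 2⟩
    ⟨[(0, 837244720334), (1, -4599186156756), (2, 10597019291851), (3, -13095493266240), (4, 9146681496320), (5, -3421357039616), (6, 535158063104)], 15360, 16384, 17408, 16384, 2, 2⟩ = true := by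
  decide +kernel

theorem l85 : HoldsOn Lq Rq (Trg.left (Trg.right (chamber 1 1))) (Trg.left (Trg.left (Trg.left (chamberNR 1 4)))) :=
  HoldsOn.congrT (by decide +kernel) (by decide +kernel)
    (holdsOn_of_leafOK hLne hRne (by norm_num) (by norm_num) hLq (hRqg 6) hNn c85)

end Vale.Agent.Lib.P154Neg.A4
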