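import Vale.Agent.Lib.P154Neg.A4.RayAll

/-!
# Pieces of the merge inequality
-/

namespace Vale.Agent.Lib.P154Neg.A4

open Vale.Agent.Lib.P154 Vale.Agent.Lib.P154GW Vale.Agent.Lib.P154K Tp

theorem c86 : leafOK 292 30 333 (⟨4, -2, -2, 5, -1, -4, 8, -4, -4, 12⟩ : Trg) (⟨-5, 4, 1, 0, 0, 0, -2, 4, -2, 96⟩ : Trg) Lq 12 5 67108864 Rq
    ⟨[(0, 538842666435), (1, -2597139429515), (2, 5038466695172), (3, -4912936955033), (4, 2405891952259), (5, -473057820454)], 13824, 16384, 16385, 16384, 8, 1⟩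
    ⟨[(0, 189161255955), (1, -831163252119), (2, 1470438954343), (3, -1307896796481), (4, 584397200458), (5, -104870253292)], 16383, 16384, 18432, 16384, 1, 2⟩
    ⟨[(0, 328230949809), (1, -1518405216214), (2, 2828869081470), (3, -2650432224261), (4, 1247797061747), (5, -235992543687)], 15360, 16384, 16896, 16384, 4, 1⟩ = true := by
  decide +kernel

theorem l86 : HoldsOn Lq Rq (Trg.left (Trg.right (chamber 1 1))) (Trg.right (Trg.left (Trg.left (chamberNR 1 4)))) :=
  HoldsOn.congrT (by decide +kernel) (by decide +kernel)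
    (holdsOn_of_leafOK hLne hRne (by norm_num) (by norm_num) hLq (hRqg 5) hNn c86)

theorem c87 : leafOK 325 32 334 (⟨7, 1, -8, 2, 2, -4, 4, 4, -8, 24⟩ : Trg) (⟨-15, 3, 12, -20, 4, 16, -18, 6, 12, 192⟩ : Trg) Lq 12 5 67108864 Rq
    ⟨[(0, 1056271962344), (1, -5423461343471), (2, 11211179032633), (3, -11650961777284), (4, 6082091506816), (5, -1275054628864)], 13568, 14592, 15616, 16384, 8, 8⟩
    ⟨[(0, 95706777455), (1, -395752579179), (2, 659032815948), (3, -551891447328), (4, 232224374934), (5, -39252980287)], 17344, 18144, 18944, 16384, 2, 1⟩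
    ⟨[(0, 306922104102), (1, -1411038253026), (2, 2612493582520), (3, -2432420198629), (4, 1137975889313), (5, -213866015184)], 15616, 16320, 17024, 16384, 2, 2⟩ = true := by
  decide +kernel

theorem l87 : HoldsOn Lq Rq (Trg.left (Trg.right (Trg.left (chamber 1 1)))) (Trg.right (Trg.left (Trg.right (Trg.right (Trg.right (chamberN 1 4)))))) :=
  HoldsOn.congrT (by decide +kernel) (by decide +kernel)
    (holdsOn_of_leafOK hLne hRne (by norm_num) (by norm_num) hLq (hRqg 5) hNn c87)

end Vale.Agent.Lib.P154Neg.A4
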