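import Vale.Agent.Lib.P154Neg.A4.RayAll

/-!
# Pieces of the merge inequality
-/

namespace Vale.Agent.Lib.P154Neg.A4

open Vale.Agent.Lib.P154 Vale.Agent.Lib.P154GW Vale.Agent.Lib.P154K Tp

theorem c88 : leafOK 290 31 313 (⟨7, 1, -8, 2, 2, -4, 4, 4, -8, 24⟩ : Trg) (⟨-9, 3, 6, -8, 4, 4, -5, 1, 4, 96⟩ : Trg) Lq 12 4 67108864 Rq
    ⟨[(0, 246973127184), (1, -988332453957), (2, 1492868916524), (3, -1007728682344), (4, 256287640588)], 14080, 14976, 15872, 16384, 4, 8⟩
    ⟨[(0, 35627206178), (1, -119690079447), (2, 151801158673), (3, -86053803046), (4, 18382360471)], 17024, 17856, 18688, 16384, 2, 4⟩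
    ⟨[(0, 116512848950), (1, -436081251382), (2, 616202980940), (3, -389206744184), (4, 92639277251)], 15360, 16032, 16704, 16384, 4, 4⟩ = true := by
  decide +kernel

theorem l88 : HoldsOn Lq Rq (Trg.left (Trg.right (Trg.left (chamber 1 1)))) (Trg.right (Trg.right (Trg.right (Trg.right (chamberN 1 4))))) :=
  HoldsOn.congrT (by decide +kernel) (by decide +kernel)
    (holdsOn_of_leafOK hLne hRne (by norm_num) (by norm_num) hLq (hRqg 4) hNn c88)

theorem c89 : leafOK 301 32 297 (⟨1, 1, -2, 2, 2, -4, 5, -1, -4, 24⟩ : Trg) (⟨-12, 6, 6, -13, 5, 8, -16, 8, 8, 192⟩ : Trg) Lq 12 4 67108864 Rq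
    ⟨[(0, 152043122574), (1, -583241732702), (2, 844739348041), (3, -546923346267), (4, 133449742456)], 15104, 15648, 16192, 16384, 4, 4⟩
    ⟨[(0, 57685663630), (1, -202752601056), (2, 269093791602), (3, -159667606572), (4, 35707848072)], 16768, 17088, 17408, 16384, 1, 1⟩
    ⟨[(0, 96733311744), (1, -356262221667), (2, 495430988696), (3, -308001946368), (4, 72166976749)], 15872, 16304, 16736, 16384, 2, 4⟩ = true := by
  decide +kernel

theorem l89 : HoldsOn Lq Rq (Trg.right (Trg.right (Trg.left (Trg.left (chamber 1 1))))) (Trg.left (Trg.right (Trg.left (Trg.left (Trg.right (Trg.right (chamberN 1 4))))))) :=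
  HoldsOn.congrT (by decide +kernel) (by decide +kernel)
    (holdsOn_of_leafOK hLne hRne (by norm_num) (by norm_num) hLq (hRqg 4) hNn c89)

end Vale.Agent.Lib.P154Neg.A4
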