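import Vale.Agent.Lib.P154Neg.A4.RayAll

/-!
# Pieces of the merge inequality
-/

namespace Vale.Agent.Lib.P154Neg.A4

open Vale.Agent.Lib.P154 Vale.Agent.Lib.P154GW Vale.Agent.Lib.P154K Tp

theorem c90 : leafOK 300 32 297 (⟨1, 1, -2, 2, 2, -4, 5, -1, -4, 24⟩ : Trg) (⟨-12, 6, 6, -8, 4, 4, -13, 5, 8, 192⟩ : Trg) Lq 12 4 67108864 Rq
    ⟨[(0, 138975057435), (1, -528887154899), (2, 759970554342), (3, -488174783813), (4, 118183443247)], 15296, 15776, 16256, 16384, 4, 4⟩
    ⟨[(0, 63971237319), (1, -226979483787), (2, 304109843354), (3, -182160227348), (4, 41125735660)], 16640, 16928, 17216, 16384, 1, 1⟩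
    ⟨[(0, 92636285690), (1, -339883735816), (2, 470879680903), (3, -291646679097), (4, 68081557272)], 16000, 16368, 16736, 16384, 2, 2⟩ = true := by
  decide +kernel

theorem l90 : HoldsOn Lq Rq (Trg.right (Trg.right (Trg.left (Trg.left (chamber 1 1))))) (Trg.right (Trg.right (Trg.left (Trg.left (Trg.right (Trg.right (chamberN 1 4))))))) :=
  HoldsOn.congrT (by decide +kernel) (by decide +kernel)
    (holdsOn_of_leafOK hLne hRne (by norm_num) (by norm_num) hLq (hRqg 4) hNn c90)

theorem c91 : leafOK 342 34 312 (⟨22, 4, -26, 23, 5, -28, 26, 2, -28, 96⟩ : Trg) (⟨-23, 7, 16, -18, 6, 12, -20, 4, 16, 192⟩ : Trg) Lq 12 4 67108864 Rq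
    ⟨[(0, 479633922860), (1, -2042636527302), (2, 3284515876834), (3, -2360956420740), (4, 639585813249)], 13632, 14096, 14560, 16384, 4, 8⟩
    ⟨[(0, 25141210273), (1, -81943393054), (2, 100851759136), (3, -55492203920), (4, 11508461240)], 18112, 18428, 18744, 16384, 1, 1⟩
    ⟨[(0, 71395491721), (1, -255845179284), (2, 346194878921), (3, -209429658583), (4, 47751575898)], 16432, 16760, 17088, 16384, 1, 1⟩ = true := by
  decide +kernel

theorem l91 : HoldsOn Lq Rq (Trg.left (Trg.left (Trg.left (Trg.right (Trg.right (Trg.right (Trg.right (Trg.left (chamber 1 1))))))))) (Trg.left (Trg.right (Trg.left (Trg.left (Trg.right (chamberN 1 4)))))) :=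
  HoldsOn.congrT (by decide +kernel) (by decide +kernel)
    (holdsOn_of_leafOK hLne hRne (by norm_num) (by norm_num) hLq (hRqg 4) hNn c91)

end Vale.Agent.Lib.P154Neg.A4
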