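import Vale.Agent.Lib.P154Neg.A4.RayAll

/-!
# Pieces of the merge inequality
-/

namespace Vale.Agent.Lib.P154Neg.A4

open Vale.Agent.Lib.P154 Vale.Agent.Lib.P154GW Vale.Agent.Lib.P154K Tp

theorem c92 : leafOK 343 34 312 (⟨22, 4, -26, 23, 5, -28, 26, 2, -28, 96⟩ : Trg) (⟨-23, 7, 16, -26, 10, 16, -18, 6, 12, 192⟩ : Trg) Lq 12 4 67108864 Rq
    ⟨[(0, 517330235964), (1, -2217517127341), (2, 3588701503551), (3, -2596069312790), (4, 707720605325)], 13440, 14000, 14560, 16384, 4, 8⟩
    ⟨[(0, 22283796106), (1, -71811723104), (2, 87381006821), (3, -47532591274), (4, 9744881359)], 18112, 18632, 19152, 16384, 1, 1⟩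
    ⟨[(0, 81468576364), (1, -295483804037), (2, 404686345184), (3, -247788943498), (4, 57184934888)], 16272, 16560, 16848, 16384, 1, 1⟩ = true := by
  decide +kernel

theorem l92 : HoldsOn Lq Rq (Trg.left (Trg.left (Trg.left (Trg.right (Trg.right (Trg.right (Trg.right (Trg.left (chamber 1 1))))))))) (Trg.right (Trg.right (Trg.left (Trg.left (Trg.right (chamberN 1 4)))))) :=
  HoldsOn.congrT (by decide +kernel) (by decide +kernel)
    (holdsOn_of_leafOK hLne hRne (by norm_num) (by norm_num) hLq (hRqg 4) hNn c92)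

theorem c93 : leafOK 308 32 313 (⟨10, 4, -14, 6, 6, -12, 11, 5, -16, 48⟩ : Trg) (⟨-9, 3, 6, -13, 5, 8, -8, 4, 4, 96⟩ : Trg) Lq 12 4 67108864 Rq
    ⟨[(0, 305909847398), (1, -1247840710678), (2, 1921180579072), (3, -1321778986995), (4, 342602176423)], 13760, 14688, 15616, 16384, 4, 8⟩
    ⟨[(0, 20594728944), (1, -65831899921), (2, 79444565797), (3, -42852579517), (4, 8710294666)], 17920, 18768, 19616, 16384, 2, 2⟩
    ⟨[(0, 135869086118), (1, -516135906788), (2, 740343437516), (3, -474750394520), (4, 114740894834)], 15424, 15808, 16192, 16384, 2, 4⟩ = true := by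
  decide +kernel

theorem l93 : HoldsOn Lq Rq (Trg.right (Trg.right (Trg.right (Trg.left (Trg.right (Trg.left (chamber 1 1))))))) (Trg.left (Trg.left (Trg.left (Trg.right (chamberN 1 4))))) :=
  HoldsOn.congrT (by decide +kernel) (by decide +kernel)
    (holdsOn_of_leafOK hLne hRne (by norm_num) (by norm_num) hLq (hRqg 4) hNn c93)

end Vale.Agent.Lib.P154Neg.A4
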