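import Vale.Agent.Lib.P154Neg.A4.RayAll

/-!
# Pieces of the merge inequality
-/

namespace Vale.Agent.Lib.P154Neg.A4

open Vale.Agent.Lib.P154 Vale.Agent.Lib.P154GW Vale.Agent.Lib.P154K Tp

theorem c94 : leafOK 309 32 313 (⟨10, 4, -14, 6, 6, -12, 11, 5, -16, 48⟩ : Trg) (⟨-9, 3, 6, -10, 2, 8, -13, 5, 8, 96⟩ : Trg) Lq 12 4 67108864 Rq
    ⟨[(0, 353061339825), (1, -1460643399178), (2, 2281166449911), (3, -1592304534335), (4, 418803198635)], 13760, 14496, 15232, 16384, 4, 8⟩
    ⟨[(0, 19462573908), (1, -61915132138), (2, 74364412453), (3, -39924792879), (4, 8077693693)], 18112, 18864, 19616, 16384, 1, 2⟩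
    ⟨[(0, 121685632391), (1, -457449761844), (2, 649295535950), (3, -411977609386), (4, 98513311870)], 15424, 15968, 16512, 16384, 4, 4⟩ = true := by
  decide +kernel

theorem l94 : HoldsOn Lq Rq (Trg.right (Trg.right (Trg.right (Trg.left (Trg.right (Trg.left (chamber 1 1))))))) (Trg.right (Trg.left (Trg.left (Trg.right (chamberN 1 4))))) :=
  HoldsOn.congrT (by decide +kernel) (by decide +kernel)
    (holdsOn_of_leafOK hLne hRne (by norm_num) (by norm_num) hLq (hRqg 4) hNn c94)

theorem c95 : leafOK 306 32 313 (⟨9, 3, -12, 12, 0, -12, 4, 4, -8, 48⟩ : Trg) (⟨-9, 3, 6, -13, 5, 8, -8, 4, 4, 96⟩ : Trg) Lq 12 4 67108864 Rq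
    ⟨[(0, 285177526279), (1, -1154604770639), (2, 1764084573227), (3, -1204238852316), (4, 309651369277)], 13696, 14784, 15872, 16384, 4, 8⟩
    ⟨[(0, 30740033593), (1, -101951541116), (2, 127662341402), (3, -71457644434), (4, 15073338341)], 17408, 18096, 18784, 16384, 2, 2⟩
    ⟨[(0, 99948950865), (1, -369120629376), (2, 514709763417), (3, -320846832960), (4, 75375857664)], 15744, 16256, 16768, 16384, 2, 4⟩ = true := by
  decide +kernel

theorem l95 : HoldsOn Lq Rq (Trg.left (Trg.right (Trg.right (Trg.right (Trg.left (chamber 1 1)))))) (Trg.left (Trg.left (Trg.left (Trg.right (chamberN 1 4))))) :=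
  HoldsOn.congrT (by decide +kernel) (by decide +kernel)
    (holdsOn_of_leafOK hLne hRne (by norm_num) (by norm_num) hLq (hRqg 4) hNn c95)

end Vale.Agent.Lib.P154Neg.A4
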