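import Vale.Agent.Lib.P154Neg.A4.RayAll

/-!
# Pieces of the merge inequality
-/

namespace Vale.Agent.Lib.P154Neg.A4

open Vale.Agent.Lib.P154 Vale.Agent.Lib.P154GW Vale.Agent.Lib.P154K Tp

theorem c96 : leafOK 306 32 313 (⟨9, 3, -12, 12, 0, -12, 4, 4, -8, 48⟩ : Trg) (⟨-9, 3, 6, -10, 2, 8, -13, 5, 8, 96⟩ : Trg) Lq 12 4 67108864 Rq
    ⟨[(0, 313436500910), (1, -1281077163021), (2, 1976189081467), (3, -1362221182370), (4, 353746270107)], 13696, 14656, 15616, 16384, 4, 8⟩
    ⟨[(0, 29561635490), (1, -97715030625), (2, 121951771790), (3, -68037126374), (4, 14305164143)], 17536, 18160, 18784, 16384, 2, 2⟩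
    ⟨[(0, 87907298271), (1, -320679555316), (2, 441648099848), (3, -271880229831), (4, 63071496469)], 15744, 16448, 17152, 16384, 4, 4⟩ = true := by
  decide +kernel

theorem l96 : HoldsOn Lq Rq (Trg.left (Trg.right (Trg.right (Trg.right (Trg.left (chamber 1 1)))))) (Trg.right (Trg.left (Trg.left (Trg.right (chamberN 1 4))))) :=
  HoldsOn.congrT (by decide +kernel) (by decide +kernel)
    (holdsOn_of_leafOK hLne hRne (by norm_num) (by norm_num) hLq (hRqg 4) hNn c96)

theorem c97 : leafOK 317 33 297 (⟨7, 1, -8, 2, 2, -4, 4, 4, -8, 48⟩ : Trg) (⟨-13, 5, 8, -18, 6, 12, -16, 8, 8, 192⟩ : Trg) Lq 12 4 67108864 Rq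
    ⟨[(0, 148611355894), (1, -569063518048), (2, 822778612662), (3, -531809357215), (4, 129550042378)], 15232, 15680, 16128, 16384, 4, 4⟩
    ⟨[(0, 54802291239), (1, -191706706149), (2, 253226238404), (3, -149537497551), (4, 33282761977)], 16800, 17168, 17536, 16384, 1, 1⟩
    ⟨[(0, 105460638331), (1, -391569043668), (2, 548990554448), (3, -344109888277), (4, 81294848058)], 15872, 16176, 16480, 16384, 1, 2⟩ = true := by
  decide +kernel

theorem l97 : HoldsOn Lq Rq (Trg.left (Trg.right (Trg.right (Trg.left (Trg.left (chamber 1 1)))))) (Trg.left (Trg.right (Trg.right (Trg.right (Trg.right (chamberN 1 4)))))) :=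
  HoldsOn.congrT (by decide +kernel) (by decide +kernel)
    (holdsOn_of_leafOK hLne hRne (by norm_num) (by norm_num) hLq (hRqg 4) hNn c97)

end Vale.Agent.Lib.P154Neg.A4
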