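import Vale.Agent.Lib.P154Neg.A4.RayAll

/-!
# Pieces of the merge inequality
-/

namespace Vale.Agent.Lib.P154Neg.A4

open Vale.Agent.Lib.P154 Vale.Agent.Lib.P154GW Vale.Agent.Lib.P154K Tp

theorem c98 : leafOK 316 33 297 (⟨7, 1, -8, 2, 2, -4, 4, 4, -8, 48⟩ : Trg) (⟨-13, 5, 8, -10, 2, 8, -18, 6, 12, 192⟩ : Trg) Lq 12 4 67108864 Rq
    ⟨[(0, 148611355894), (1, -569063518048), (2, 822778612662), (3, -531809357215), (4, 129550042378)], 15232, 15680, 16128, 16384, 4, 4⟩
    ⟨[(0, 56523034489), (1, -198263118314), (2, 262593586352), (3, -155485259213), (4, 34698851833)], 16704, 17120, 17536, 16384, 1, 2⟩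
    ⟨[(0, 98808444809), (1, -364723439463), (2, 508365243592), (3, -316787312288), (4, 74404172258)], 16000, 16272, 16544, 16384, 1, 1⟩ = true := by
  decide +kernel

theorem l98 : HoldsOn Lq Rq (Trg.left (Trg.right (Trg.right (Trg.left (Trg.left (chamber 1 1)))))) (Trg.right (Trg.right (Trg.right (Trg.right (Trg.right (chamberN 1 4)))))) :=
  HoldsOn.congrT (by decide +kernel) (by decide +kernel)
    (holdsOn_of_leafOK hLne hRne (by norm_num) (by norm_num) hLq (hRqg 4) hNn c98)

theorem c99 : leafOK 287 31 312 (⟨6, 0, -6, 5, -1, -4, 2, 2, -4, 24⟩ : Trg) (⟨-9, 3, 6, -8, 4, 4, -5, 1, 4, 96⟩ : Trg) Lq 12 4 67108864 Rq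
    ⟨[(0, 214382420834), (1, -847864268497), (2, 1265916158075), (3, -844816727622), (4, 212450221959)], 14464, 15168, 15872, 16384, 4, 8⟩
    ⟨[(0, 48025965967), (1, -165933280680), (2, 216468915281), (3, -126240725414), (4, 27746181154)], 16832, 17376, 17920, 16384, 2, 4⟩
    ⟨[(0, 89748989259), (1, -328197333826), (2, 453146689742), (3, -279690761938), (4, 65059525890)], 15872, 16416, 16960, 16384, 2, 4⟩ = true := by
  decide +kernel

theorem l99 : HoldsOn Lq Rq (Trg.left (Trg.left (Trg.left (Trg.left (chamber 1 1))))) (Trg.right (Trg.right (Trg.right (Trg.right (chamberN 1 4))))) :=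
  HoldsOn.congrT (by decide +kernel) (by decide +kernel)
    (holdsOn_of_leafOK hLne hRne (by norm_num) (by norm_num) hLq (hRqg 4) hNn c99)

end Vale.Agent.Lib.P154Neg.A4
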