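import Vale.Agent.Lib.P154Neg.A4.RayAll

/-!
# Pieces of the merge inequality
-/

namespace Vale.Agent.Lib.P154Neg.A4

open Vale.Agent.Lib.P154 Vale.Agent.Lib.P154GW Vale.Agent.Lib.P154K Tp

theorem c10 : leafOK 287 29 372 (⟨1, 1, -2, 5, -1, -4, 0, 0, 0, 12⟩ : Trg) (⟨-4, 2, 2, -5, 4, 1, -8, 4, 4, 48⟩ : Trg) Lq 12 6 67108864 Rq
    ⟨[(0, 3423407158321), (1, -20961732064387), (2, 53706857537988), (3, -73635129190908), (4, 56939603645765), (5, -23531891648061), (6, 4058951670146)], 11264, 16384, 16385, 16384, 16, 1⟩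
    ⟨[(0, 339358568423), (1, -1708280823492), (2, 3603514067833), (3, -4073009535431), (4, 2599500799086), (5, -887635705601), (6, 126619738046)], 16383, 16384, 20480, 16384, 1, 4⟩
    ⟨[(0, 829011711612), (1, -4552394185017), (2, 10486577152100), (3, -12956971608405), (4, 9049344934390), (5, -3385042145864), (6, 529541250048)], 15360, 16384, 17408, 16384, 4, 4⟩ = true := by
  decide +kernel

theorem l10 : HoldsOn Lq Rq (Trg.left (Trg.left (chamber 1 1))) (Trg.left (Trg.right (chamberNR 1 4))) :=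
  HoldsOn.congrT (by decide +kernel) (by decide +kernel)
    (holdsOn_of_leafOK hLne hRne (by norm_num) (by norm_num) hLq (hRqg 6) hNn c10)

theorem c11 : leafOK 286 29 371 (⟨1, 1, -2, 2, 2, -4, 5, -1, -4, 12⟩ : Trg) (⟨-1, 2, -1, -5, 4, 1, 0, 0, 0, 48⟩ : Trg) Lq 12 6 67108864 Rq
    ⟨[(0, 1487402502464), (1, -8576522190304), (2, 20731957637002), (3, -26864932215534), (4, 19666363026146), (5, -7706423166274), (6, 1262221515364)], 13568, 16384, 16896, 16384, 4, 2⟩
    ⟨[(0, 396288781334), (1, -2027835740187), (2, 4350082492324), (3, -5002228103008), (4, 3249341877050), (5, -1129742550753), (6, 164160352104)], 16383, 16384, 19712, 16384, 1, 4⟩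
    ⟨[(0, 1390512953834), (1, -7994639210228), (2, 19278216315951), (3, -24931139752705), (4, 18221946144518), (5, -7132079115901), (6, 1167249773395)], 14336, 16384, 16385, 16384, 16, 1⟩ = true := by
  decide +kernel

theorem l11 : HoldsOn Lq Rq (Trg.right (Trg.left (chamber 1 1))) (Trg.left (Trg.left (chamberNR 1 4))) :=
  HoldsOn.congrT (by decide +kernel) (by decide +kernel)
    (holdsOn_of_leafOK hLne hRne (by norm_num) (by norm_num) hLq (hRqg 6) hNn c11)

end Vale.Agent.Lib.P154Neg.A4
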