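import Vale.Agent.Lib.P154Neg.A4.RayAll

/-!
# Pieces of the merge inequality
-/

namespace Vale.Agent.Lib.P154Neg.A4

open Vale.Agent.Lib.P154 Vale.Agent.Lib.P154GW Vale.Agent.Lib.P154K Tp

theorem c100 : leafOK 292 31 313 (⟨6, 0, -6, 10, -2, -8, 5, -1, -4, 24⟩ : Trg) (⟨-9, 3, 6, -8, 4, 4, -5, 1, 4, 96⟩ : Trg) Lq 12 4 67108864 Rq
    ⟨[(0, 381045255037), (1, -1583572475594), (2, 2483430091238), (3, -1740034793221), (4, 459215050890)], 13312, 14400, 15488, 16384, 8, 8⟩
    ⟨[(0, 40930177916), (1, -139262879913), (2, 178884903410), (3, -102706058745), (4, 22220848247)], 16832, 17632, 18432, 16384, 2, 4⟩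
    ⟨[(0, 62705819374), (1, -221941603452), (2, 296595726385), (3, -177183644763), (4, 39890811355)], 16384, 16960, 17536, 16384, 2, 4⟩ = true := by
  decide +kernel

theorem l100 : HoldsOn Lq Rq (Trg.right (Trg.left (Trg.left (Trg.left (chamber 1 1))))) (Trg.right (Trg.right (Trg.right (Trg.right (chamberN 1 4))))) :=
  HoldsOn.congrT (by decide +kernel) (by decide +kernel)
    (holdsOn_of_leafOK hLne hRne (by norm_num) (by norm_num) hLq (hRqg 4) hNn c100)

theorem c101 : leafOK 294 31 313 (⟨6, 0, -6, 7, 1, -8, 10, -2, -8, 24⟩ : Trg) (⟨-9, 3, 6, -8, 4, 4, -5, 1, 4, 96⟩ : Trg) Lq 12 4 67108864 Rq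
    ⟨[(0, 419844215912), (1, -1761876957713), (2, 2790474536350), (3, -1974850474738), (4, 526506052347)], 13312, 14272, 15232, 16384, 8, 8⟩
    ⟨[(0, 36311630851), (1, -122269906336), (2, 155444103288), (3, -88337904739), (4, 18918908743)], 17152, 17824, 18496, 16384, 2, 4⟩
    ⟨[(0, 68193437118), (1, -243103036678), (2, 327191025990), (3, -196839826852), (4, 44625511836)], 16128, 16832, 17536, 16384, 4, 4⟩ = true := by
  decide +kernel

theorem l101 : HoldsOn Lq Rq (Trg.left (Trg.right (Trg.right (Trg.left (chamber 1 1))))) (Trg.right (Trg.right (Trg.right (Trg.right (chamberN 1 4))))) :=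
  HoldsOn.congrT (by decide +kernel) (by decide +kernel)
    (holdsOn_of_leafOK hLne hRne (by norm_num) (by norm_num) hLq (hRqg 4) hNn c101)

end Vale.Agent.Lib.P154Neg.A4
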