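import Vale.Agent.Lib.P154Neg.A4.RayAll

/-!
# Pieces of the merge inequality
-/

namespace Vale.Agent.Lib.P154Neg.A4

open Vale.Agent.Lib.P154 Vale.Agent.Lib.P154GW Vale.Agent.Lib.P154K Tp

theorem c102 : leafOK 289 31 313 (⟨6, 0, -6, 2, 2, -4, 7, 1, -8, 24⟩ : Trg) (⟨-9, 3, 6, -8, 4, 4, -5, 1, 4, 96⟩ : Trg) Lq 12 4 67108864 Rq
    ⟨[(0, 246973127184), (1, -988332453957), (2, 1492868916524), (3, -1007728682344), (4, 256287640588)], 14080, 14976, 15872, 16384, 4, 8⟩
    ⟨[(0, 37787687479), (1, -127673340218), (2, 162860229382), (3, -92860745478), (4, 19953065932)], 17024, 17760, 18496, 16384, 2, 4⟩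
    ⟨[(0, 95699830394), (1, -352098347810), (2, 489140589288), (3, -303778851474), (4, 71103888773)], 15872, 16320, 16768, 16384, 2, 4⟩ = true := by
  decide +kernel

theorem l102 : HoldsOn Lq Rq (Trg.right (Trg.right (Trg.right (Trg.left (chamber 1 1))))) (Trg.right (Trg.right (Trg.right (Trg.right (chamberN 1 4))))) :=
  HoldsOn.congrT (by decide +kernel) (by decide +kernel)
    (holdsOn_of_leafOK hLne hRne (by norm_num) (by norm_num) hLq (hRqg 4) hNn c102)

theorem c103 : leafOK 300 32 297 (⟨7, 1, -8, 2, 2, -4, 4, 4, -8, 48⟩ : Trg) (⟨-4, 2, 2, -5, 4, 1, -8, 4, 4, 96⟩ : Trg) Lq 12 4 67108864 Rq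
    ⟨[(0, 127125976712), (1, -479977600762), (2, 684271238672), (3, -436107408475), (4, 104754904241)], 15488, 15904, 16320, 16384, 2, 4⟩
    ⟨[(0, 60125214698), (1, -212099158749), (2, 282521426266), (3, -168240741136), (4, 37760360954)], 16640, 17024, 17408, 16384, 1, 2⟩
    ⟨[(0, 111355837041), (1, -415556852298), (2, 585591983723), (3, -368930191006), (4, 87606331569)], 15872, 16096, 16320, 16384, 1, 1⟩ = true := by
  decide +kernel

theorem l103 : HoldsOn Lq Rq (Trg.left (Trg.right (Trg.right (Trg.left (Trg.left (chamber 1 1)))))) (Trg.left (Trg.left (Trg.right (Trg.right (chamberNR 1 4))))) :=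
  HoldsOn.congrT (by decide +kernel) (by decide +kernel)
    (holdsOn_of_leafOK hLne hRne (by norm_num) (by norm_num) hLq (hRqg 4) hNn c103)

end Vale.Agent.Lib.P154Neg.A4
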