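import Vale.Agent.Lib.P154Neg.A4.RayAll

/-!
# Pieces of the merge inequality
-/

namespace Vale.Agent.Lib.P154Neg.A4

open Vale.Agent.Lib.P154 Vale.Agent.Lib.P154GW Vale.Agent.Lib.P154K Tp

theorem c104 : leafOK 300 32 297 (⟨7, 1, -8, 10, -2, -8, 2, 2, -4, 48⟩ : Trg) (⟨-4, 2, 2, -5, 4, 1, -8, 4, 4, 96⟩ : Trg) Lq 12 4 67108864 Rq
    ⟨[(0, 145407877759), (1, -555409655121), (2, 800968929582), (3, -516335526328), (4, 125435490294)], 15104, 15712, 16320, 16384, 4, 4⟩
    ⟨[(0, 60125214698), (1, -212099158749), (2, 282521426266), (3, -168240741136), (4, 37760360954)], 16640, 17024, 17408, 16384, 1, 2⟩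
    ⟨[(0, 93621543126), (1, -343879617296), (2, 476955619910), (3, -295751932590), (4, 69121495756)], 16064, 16352, 16640, 16384, 1, 1⟩ = true := by
  decide +kernel

theorem l104 : HoldsOn Lq Rq (Trg.right (Trg.right (Trg.right (Trg.left (Trg.left (chamber 1 1)))))) (Trg.left (Trg.left (Trg.right (Trg.right (chamberNR 1 4))))) :=
  HoldsOn.congrT (by decide +kernel) (by decide +kernel)
    (holdsOn_of_leafOK hLne hRne (by norm_num) (by norm_num) hLq (hRqg 4) hNn c104)

theorem c105 : leafOK 341 34 312 (⟨22, 4, -26, 18, 6, -24, 23, 5, -28, 96⟩ : Trg) (⟨-23, 7, 16, -18, 6, 12, -20, 4, 16, 192⟩ : Trg) Lq 12 4 67108864 Rq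
    ⟨[(0, 391105498847), (1, -1634917299027), (2, 2580434718556), (3, -1820633206359), (4, 484108226345)], 13872, 14360, 14848, 16384, 4, 8⟩
    ⟨[(0, 25875427018), (1, -84551198675), (2, 104325017403), (3, -57548076103), (4, 11964777697)], 18016, 18380, 18744, 16384, 1, 1⟩
    ⟨[(0, 81466118939), (1, -295481328303), (2, 404693421411), (3, -247800695157), (4, 57189592008)], 16288, 16560, 16832, 16384, 1, 1⟩ = true := by
  decide +kernel

theorem l105 : HoldsOn Lq Rq (Trg.right (Trg.left (Trg.left (Trg.right (Trg.right (Trg.right (Trg.right (Trg.left (chamber 1 1))))))))) (Trg.left (Trg.right (Trg.left (Trg.left (Trg.right (chamberN 1 4)))))) :=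
  HoldsOn.congrT (by decide +kernel) (by decide +kernel)
    (holdsOn_of_leafOK hLne hRne (by norm_num) (by norm_num) hLq (hRqg 4) hNn c105)

end Vale.Agent.Lib.P154Neg.A4
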