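import Vale.Agent.Lib.P154Neg.A4.RayAll

/-!
# Pieces of the merge inequality
-/

namespace Vale.Agent.Lib.P154Neg.A4

open Vale.Agent.Lib.P154 Vale.Agent.Lib.P154GW Vale.Agent.Lib.P154K Tp

theorem c106 : leafOK 341 34 312 (⟨22, 4, -26, 18, 6, -24, 23, 5, -28, 96⟩ : Trg) (⟨-23, 7, 16, -26, 10, 16, -18, 6, 12, 192⟩ : Trg) Lq 12 4 67108864 Rq
    ⟨[(0, 413489227834), (1, -1736754659472), (2, 2754148896614), (3, -1952308185318), (4, 521530068746)], 13728, 14288, 14848, 16384, 4, 8⟩
    ⟨[(0, 22928440515), (1, -74072310705), (2, 90353379974), (3, -49269402082), (4, 10125406027)], 18016, 18584, 19152, 16384, 1, 2⟩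
    ⟨[(0, 94119987863), (1, -345898129318), (2, 480020511214), (3, -297819955300), (4, 69644694434)], 16096, 16344, 16592, 16384, 1, 1⟩ = true := by
  decide +kernel

theorem l106 : HoldsOn Lq Rq (Trg.right (Trg.left (Trg.left (Trg.right (Trg.right (Trg.right (Trg.right (Trg.left (chamber 1 1))))))))) (Trg.right (Trg.right (Trg.left (Trg.left (Trg.right (chamberN 1 4)))))) :=
  HoldsOn.congrT (by decide +kernel) (by decide +kernel)
    (holdsOn_of_leafOK hLne hRne (by norm_num) (by norm_num) hLq (hRqg 4) hNn c106)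

theorem c107 : leafOK 324 33 313 (⟨3, 3, -6, 4, 4, -8, 7, 1, -8, 24⟩ : Trg) (⟨-41, 28, 13, -44, 28, 16, -36, 24, 12, 384⟩ : Trg) Lq 12 4 67108864 Rq
    ⟨[(0, 241066847803), (1, -963118487351), (2, 1452534952670), (3, -979074738358), (4, 248659986896)], 14208, 15008, 15808, 16384, 4, 8⟩
    ⟨[(0, 20771755791), (1, -66493473202), (2, 80367324707), (3, -43422214075), (4, 8841670007)], 18112, 18752, 19392, 16384, 1, 2⟩
    ⟨[(0, 224377195971), (1, -891753300494), (2, 1338154522096), (3, -897636725376), (4, 226926747648)], 14592, 15104, 15616, 16384, 4, 8⟩ = true := by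
  decide +kernel

theorem l107 : HoldsOn Lq Rq (Trg.right (Trg.left (Trg.right (Trg.left (chamber 1 1))))) (Trg.left (Trg.right (Trg.right (Trg.right (Trg.left (Trg.left (Trg.right (chamberNR 1 4)))))))) :=
  HoldsOn.congrT (by decide +kernel) (by decide +kernel)
    (holdsOn_of_leafOK hLne hRne (by norm_num) (by norm_num) hLq (hRqg 4) hNn c107)

end Vale.Agent.Lib.P154Neg.A4
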