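import Vale.Agent.Lib.P154Neg.A4.RayAll

/-!
# Pieces of the merge inequality
-/

namespace Vale.Agent.Lib.P154Neg.A4

open Vale.Agent.Lib.P154 Vale.Agent.Lib.P154GW Vale.Agent.Lib.P154K Tp

theorem c108 : leafOK 325 33 313 (⟨3, 3, -6, 4, 4, -8, 7, 1, -8, 24⟩ : Trg) (⟨-41, 28, 13, -46, 32, 14, -44, 28, 16, 384⟩ : Trg) Lq 12 4 67108864 Rq
    ⟨[(0, 245312027662), (1, -981754544077), (2, 1483201519422), (3, -1001493755522), (4, 254803584706)], 14208, 14984, 15760, 16384, 4, 8⟩
    ⟨[(0, 18143012330), (1, -57370883548), (2, 68496978431), (3, -36558325081), (4, 7353499773)], 18352, 18984, 19616, 16384, 1, 2⟩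
    ⟨[(0, 252384534055), (1, -1013460644690), (2, 1536453058146), (3, -1041207609962), (4, 265900424726)], 14336, 14944, 15552, 16384, 4, 8⟩ = true := by
  decide +kernel

theorem l108 : HoldsOn Lq Rq (Trg.right (Trg.left (Trg.right (Trg.left (chamber 1 1))))) (Trg.right (Trg.right (Trg.right (Trg.right (Trg.left (Trg.left (Trg.right (chamberNR 1 4)))))))) :=
  HoldsOn.congrT (by decide +kernel) (by decide +kernel)
    (holdsOn_of_leafOK hLne hRne (by norm_num) (by norm_num) hLq (hRqg 4) hNn c108)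

theorem c109 : leafOK 345 34 328 (⟨17, -1, -16, 12, 0, -12, 14, 2, -16, 48⟩ : Trg) (⟨-49, 17, 32, -44, 16, 28, -46, 14, 32, 384⟩ : Trg) Lq 12 4 67108864 Rq
    ⟨[(0, 827316272562), (1, -3698520517312), (2, 6241803723488), (3, -4708205289490), (4, 1338203478345)], 12752, 13416, 14080, 16384, 4, 16⟩
    ⟨[(0, 20281352055), (1, -64806675711), (2, 78192259911), (3, -42176076804), (4, 8574026962)], 18304, 18792, 19280, 16384, 1, 1⟩
    ⟨[(0, 63659372302), (1, -225715415744), (2, 302192612820), (3, -180870370926), (4, 40800908249)], 16512, 16936, 17360, 16384, 2, 2⟩ = true := by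
  decide +kernel

theorem l109 : HoldsOn Lq Rq (Trg.left (Trg.left (Trg.right (Trg.right (Trg.left (chamber 1 1)))))) (Trg.left (Trg.left (Trg.right (Trg.right (Trg.left (Trg.left (Trg.right (chamberN 1 4)))))))) :=
  HoldsOn.congrT (by decide +kernel) (by decide +kernel)
    (holdsOn_of_leafOK hLne hRne (by norm_num) (by norm_num) hLq (hRqg 4) hNn c109)

end Vale.Agent.Lib.P154Neg.A4
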