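import Vale.Agent.Lib.P154Neg.A4.RayAll

/-!
# Pieces of the merge inequality
-/

namespace Vale.Agent.Lib.P154Neg.A4

open Vale.Agent.Lib.P154 Vale.Agent.Lib.P154GW Vale.Agent.Lib.P154K Tp

theorem c110 : leafOK 346 34 328 (⟨17, -1, -16, 12, 0, -12, 14, 2, -16, 48⟩ : Trg) (⟨-49, 17, 32, -52, 20, 32, -44, 16, 28, 384⟩ : Trg) Lq 12 4 67108864 Rq
    ⟨[(0, 878266183100), (1, -3945903136705), (2, 6692071825691), (3, -5072318334327), (4, 1448580577300)], 12608, 13344, 14080, 16384, 8, 16⟩
    ⟨[(0, 18916137590), (1, -60046349846), (2, 71968512821), (3, -38560039397), (4, 7786267826)], 18304, 18912, 19520, 16384, 1, 2⟩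
    ⟨[(0, 67585723280), (1, -240957787748), (2, 324380492584), (3, -195224111358), (4, 44282791545)], 16448, 16844, 17240, 16384, 1, 2⟩ = true := by
  decide +kernel

theorem l110 : HoldsOn Lq Rq (Trg.left (Trg.left (Trg.right (Trg.right (Trg.left (chamber 1 1)))))) (Trg.right (Trg.left (Trg.right (Trg.right (Trg.left (Trg.left (Trg.right (chamberN 1 4)))))))) :=
  HoldsOn.congrT (by decide +kernel) (by decide +kernel)
    (holdsOn_of_leafOK hLne hRne (by norm_num) (by norm_num) hLq (hRqg 4) hNn c110)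

theorem c111 : leafOK 324 33 312 (⟨10, 4, -14, 9, 3, -12, 6, 6, -12, 48⟩ : Trg) (⟨-23, 7, 16, -26, 10, 16, -18, 6, 12, 192⟩ : Trg) Lq 12 4 67108864 Rq
    ⟨[(0, 320257494316), (1, -1314082810929), (2, 2035684565075), (3, -1409613138764), (4, 367831695699)], 14016, 14624, 15232, 16384, 4, 8⟩
    ⟨[(0, 22606855553), (1, -72935400155), (2, 88846332306), (3, -48381665597), (4, 9929335938)], 18016, 18608, 19200, 16384, 1, 2⟩
    ⟨[(0, 129272543656), (1, -488774108373), (2, 697787436649), (3, -445336596261), (4, 107117834803)], 15424, 15880, 16336, 16384, 4, 4⟩ = true := by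
  decide +kernel

theorem l111 : HoldsOn Lq Rq (Trg.left (Trg.left (Trg.left (Trg.left (Trg.right (Trg.left (chamber 1 1))))))) (Trg.right (Trg.right (Trg.left (Trg.left (Trg.right (chamberN 1 4)))))) :=
  HoldsOn.congrT (by decide +kernel) (by decide +kernel)
    (holdsOn_of_leafOK hLne hRne (by norm_num) (by norm_num) hLq (hRqg 4) hNn c111)

end Vale.Agent.Lib.P154Neg.A4
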