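import Vale.Agent.Lib.P154Neg.A4.RayAll

/-!
# Pieces of the merge inequality
-/

namespace Vale.Agent.Lib.P154Neg.A4

open Vale.Agent.Lib.P154 Vale.Agent.Lib.P154GW Vale.Agent.Lib.P154K Tp

theorem c112 : leafOK 326 33 313 (⟨10, 4, -14, 14, 2, -16, 9, 3, -12, 48⟩ : Trg) (⟨-23, 7, 16, -26, 10, 16, -18, 6, 12, 192⟩ : Trg) Lq 12 4 67108864 Rq
    ⟨[(0, 511817640037), (1, -2188551333472), (2, 3532372217831), (3, -2547900438153), (4, 692410207645)], 13184, 14016, 14848, 16384, 8, 8⟩
    ⟨[(0, 20586401610), (1, -65824565769), (2, 79463283194), (3, -42879854917), (4, 8719798073)], 18016, 18768, 19520, 16384, 1, 2⟩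
    ⟨[(0, 94660181293), (1, -347967891975), (2, 482987885832), (3, -299706206709), (4, 70093140593)], 15936, 16336, 16736, 16384, 2, 2⟩ = true := by
  decide +kernel

theorem l112 : HoldsOn Lq Rq (Trg.right (Trg.left (Trg.left (Trg.left (Trg.right (Trg.left (chamber 1 1))))))) (Trg.right (Trg.right (Trg.left (Trg.left (Trg.right (chamberN 1 4)))))) :=
  HoldsOn.congrT (by decide +kernel) (by decide +kernel)
    (holdsOn_of_leafOK hLne hRne (by norm_num) (by norm_num) hLq (hRqg 4) hNn c112)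

theorem c113 : leafOK 328 33 327 (⟨10, 4, -14, 11, 5, -16, 14, 2, -16, 48⟩ : Trg) (⟨-22, 8, 14, -23, 7, 16, -26, 10, 16, 192⟩ : Trg) Lq 12 4 67108864 Rq
    ⟨[(0, 625797692908), (1, -2728966393915), (2, 4492886569667), (3, -3306382955160), (4, 916936667484)], 13184, 13760, 14336, 16384, 4, 16⟩
    ⟨[(0, 16158592560), (1, -50583494332), (2, 59792175284), (3, -31597106163), (4, 6293258007)], 18752, 19184, 19616, 16384, 1, 1⟩
    ⟨[(0, 99937906645), (1, -369109502782), (2, 514743301081), (3, -320903101666), (4, 75398506144)], 15776, 16256, 16736, 16384, 2, 4⟩ = true := by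
  decide +kernel

theorem l113 : HoldsOn Lq Rq (Trg.left (Trg.right (Trg.right (Trg.left (Trg.right (Trg.left (chamber 1 1))))))) (Trg.left (Trg.right (Trg.right (Trg.left (Trg.left (Trg.right (chamberN 1 4))))))) :=
  HoldsOn.congrT (by decide +kernel) (by decide +kernel)
    (holdsOn_of_leafOK hLne hRne (by norm_num) (by norm_num) hLq (hRqg 4) hNn c113)

end Vale.Agent.Lib.P154Neg.A4
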