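import Vale.Agent.Lib.P154Neg.A4.RayAll

/-!
# Pieces of the merge inequality
-/

namespace Vale.Agent.Lib.P154Neg.A4

open Vale.Agent.Lib.P154 Vale.Agent.Lib.P154GW Vale.Agent.Lib.P154K Tp

theorem c114 : leafOK 327 33 312 (⟨10, 4, -14, 11, 5, -16, 14, 2, -16, 48⟩ : Trg) (⟨-22, 8, 14, -18, 6, 12, -23, 7, 16, 192⟩ : Trg) Lq 12 4 67108864 Rq
    ⟨[(0, 511101290061), (1, -2187603049700), (2, 3534884465937), (3, -2553080873111), (4, 694855844810)], 13376, 14016, 14656, 16384, 4, 8⟩
    ⟨[(0, 20857790984), (1, -66824834635), (2, 80841679205), (3, -43721777916), (4, 8912164682)], 18304, 18744, 19184, 16384, 1, 1⟩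
    ⟨[(0, 94660181293), (1, -347967891975), (2, 482987885832), (3, -299706206709), (4, 70093140593)], 15936, 16336, 16736, 16384, 2, 2⟩ = true := by
  decide +kernel

theorem l114 : HoldsOn Lq Rq (Trg.left (Trg.right (Trg.right (Trg.left (Trg.right (Trg.left (chamber 1 1))))))) (Trg.right (Trg.right (Trg.right (Trg.left (Trg.left (Trg.right (chamberN 1 4))))))) :=
  HoldsOn.congrT (by decide +kernel) (by decide +kernel)
    (holdsOn_of_leafOK hLne hRne (by norm_num) (by norm_num) hLq (hRqg 4) hNn c114)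

theorem c115 : leafOK 344 34 312 (⟨23, 5, -28, 28, 4, -32, 26, 2, -28, 96⟩ : Trg) (⟨-22, 8, 14, -23, 7, 16, -26, 10, 16, 192⟩ : Trg) Lq 12 4 67108864 Rq
    ⟨[(0, 688684062793), (1, -3030908455049), (2, 5036430377128), (3, -3741169187094), (4, 1047331773953)], 13184, 13640, 14096, 16384, 4, 8⟩
    ⟨[(0, 17075499035), (1, -53722488517), (2, 63821762348), (3, -33896012992), (4, 6785056052)], 18656, 19088, 19520, 16384, 1, 1⟩
    ⟨[(0, 81468576364), (1, -295483804037), (2, 404686345184), (3, -247788943498), (4, 57184934888)], 16272, 16560, 16848, 16384, 1, 1⟩ = true := by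
  decide +kernel

theorem l115 : HoldsOn Lq Rq (Trg.right (Trg.left (Trg.right (Trg.right (Trg.right (Trg.right (Trg.left (chamber 1 1)))))))) (Trg.left (Trg.right (Trg.right (Trg.left (Trg.left (Trg.right (chamberN 1 4))))))) :=
  HoldsOn.congrT (by decide +kernel) (by decide +kernel)
    (holdsOn_of_leafOK hLne hRne (by norm_num) (by norm_num) hLq (hRqg 4) hNn c115)

end Vale.Agent.Lib.P154Neg.A4
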