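import Vale.Agent.Lib.P154Neg.A4.RayAll

/-!
# Pieces of the merge inequality
-/

namespace Vale.Agent.Lib.P154Neg.A4

open Vale.Agent.Lib.P154 Vale.Agent.Lib.P154GW Vale.Agent.Lib.P154K Tp

theorem c116 : leafOK 343 34 312 (⟨23, 5, -28, 28, 4, -32, 26, 2, -28, 96⟩ : Trg) (⟨-22, 8, 14, -18, 6, 12, -23, 7, 16, 192⟩ : Trg) Lq 12 4 67108864 Rq
    ⟨[(0, 550953305966), (1, -2375329404990), (2, 3866411235615), (3, -2813226729914), (4, 771386293490)], 13376, 13920, 14464, 16384, 4, 8⟩
    ⟨[(0, 22383563309), (1, -72177720208), (2, 87883585709), (3, -47838796686), (4, 9814731864)], 18208, 18624, 19040, 16384, 1, 1⟩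
    ⟨[(0, 79328408899), (1, -287043092990), (2, 392203143771), (3, -239584014557), (4, 55162663771)], 16352, 16600, 16848, 16384, 1, 1⟩ = true := by
  decide +kernel

theorem l116 : HoldsOn Lq Rq (Trg.right (Trg.left (Trg.right (Trg.right (Trg.right (Trg.right (Trg.left (chamber 1 1)))))))) (Trg.right (Trg.right (Trg.right (Trg.left (Trg.left (Trg.right (chamberN 1 4))))))) :=
  HoldsOn.congrT (by decide +kernel) (by decide +kernel)
    (holdsOn_of_leafOK hLne hRne (by norm_num) (by norm_num) hLq (hRqg 4) hNn c116)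

theorem c117 : leafOK 312 32 328 (⟨6, 0, -6, 7, 1, -8, 10, -2, -8, 24⟩ : Trg) (⟨-15, 3, 12, -20, 4, 16, -18, 6, 12, 192⟩ : Trg) Lq 12 4 67108864 Rq
    ⟨[(0, 643815180116), (1, -2808748822100), (2, 4624633211845), (3, -3402459714278), (4, 943016636054)], 12800, 13728, 14656, 16384, 8, 16⟩
    ⟨[(0, 31632560605), (1, -105235784480), (2, 132192453317), (3, -74233721856), (4, 15711043584)], 17536, 18048, 18560, 16384, 1, 2⟩
    ⟨[(0, 48077123464), (1, -165983222833), (2, 216338198846), (3, -126032635546), (4, 27667618570)], 16576, 17376, 18176, 16384, 2, 4⟩ = true := by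
  decide +kernel

theorem l117 : HoldsOn Lq Rq (Trg.left (Trg.right (Trg.right (Trg.left (chamber 1 1))))) (Trg.right (Trg.left (Trg.right (Trg.right (Trg.right (chamberN 1 4)))))) :=
  HoldsOn.congrT (by decide +kernel) (by decide +kernel)
    (holdsOn_of_leafOK hLne hRne (by norm_num) (by norm_num) hLq (hRqg 4) hNn c117)

end Vale.Agent.Lib.P154Neg.A4
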