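import Vale.Agent.Lib.P154Neg.A4.RayAll

/-!
# Pieces of the merge inequality
-/

namespace Vale.Agent.Lib.P154Neg.A4

open Vale.Agent.Lib.P154 Vale.Agent.Lib.P154GW Vale.Agent.Lib.P154K Tp

theorem c118 : leafOK 307 32 313 (⟨6, 0, -6, 2, 2, -4, 7, 1, -8, 24⟩ : Trg) (⟨-15, 3, 12, -20, 4, 16, -18, 6, 12, 192⟩ : Trg) Lq 12 4 67108864 Rq
    ⟨[(0, 329105740060), (1, -1350439210806), (2, 2091262531509), (3, -1447021026688), (4, 377166832128)], 13568, 14592, 15616, 16384, 4, 8⟩
    ⟨[(0, 33554316536), (1, -112200330920), (2, 141656178321), (3, -79948408036), (4, 17004934320)], 17344, 17952, 18560, 16384, 2, 2⟩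
    ⟨[(0, 80674517003), (1, -292144422057), (2, 399439679178), (3, -244137489518), (4, 56234824346)], 16000, 16576, 17152, 16384, 2, 4⟩ = true := by
  decide +kernel

theorem l118 : HoldsOn Lq Rq (Trg.right (Trg.right (Trg.right (Trg.left (chamber 1 1))))) (Trg.right (Trg.left (Trg.right (Trg.right (Trg.right (chamberN 1 4)))))) :=
  HoldsOn.congrT (by decide +kernel) (by decide +kernel)
    (holdsOn_of_leafOK hLne hRne (by norm_num) (by norm_num) hLq (hRqg 4) hNn c118)

theorem c119 : leafOK 324 33 312 (⟨11, 5, -16, 6, 6, -12, 8, 8, -16, 48⟩ : Trg) (⟨-23, 16, 7, -18, 12, 6, -20, 16, 4, 192⟩ : Trg) Lq 12 4 67108864 Rq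
    ⟨[(0, 177186422219), (1, -689138548991), (2, 1011968725085), (3, -664277265142), (4, 164327936136)], 14864, 15432, 16000, 16384, 4, 8⟩
    ⟨[(0, 20293283136), (1, -64817265971), (2, 78165657864), (3, -42137178594), (4, 8560459127)], 18112, 18792, 19472, 16384, 1, 2⟩
    ⟨[(0, 283914917768), (1, -1152979212171), (2, 1767920509461), (3, -1211850995897), (4, 313068112219)], 14336, 14784, 15232, 16384, 4, 8⟩ = true := by
  decide +kernel

theorem l119 : HoldsOn Lq Rq (Trg.left (Trg.right (Trg.left (Trg.right (Trg.left (chamber 1 1)))))) (Trg.left (Trg.right (Trg.left (Trg.left (Trg.right (chamberNR 1 4)))))) :=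
  HoldsOn.congrT (by decide +kernel) (by decide +kernel)
    (holdsOn_of_leafOK hLne hRne (by norm_num) (by norm_num) hLq (hRqg 4) hNn c119)

end Vale.Agent.Lib.P154Neg.A4
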