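import Vale.Agent.Lib.P154Neg.A4.RayAll

/-!
# Pieces of the merge inequality
-/

namespace Vale.Agent.Lib.P154Neg.A4

open Vale.Agent.Lib.P154 Vale.Agent.Lib.P154GW Vale.Agent.Lib.P154K Tp

theorem c12 : leafOK 273 29 332 (⟨1, 1, -2, 2, 2, -4, 5, -1, -4, 12⟩ : Trg) (⟨-1, 2, -1, -2, 4, -2, -5, 4, 1, 48⟩ : Trg) Lq 12 5 67108864 Rq
    ⟨[(0, 557720383622), (1, -2684671892648), (2, 5197554341801), (3, -5053692797525), (4, 2465885831182), (5, -482728721116)], 13568, 15488, 17408, 16384, 8, 4⟩
    ⟨[(0, 94639837809), (1, -389710336078), (2, 645935380678), (3, -538118777204), (4, 225141235897), (5, -37820284051)], 16640, 18176, 19712, 16384, 2, 2⟩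
    ⟨[(0, 720164572681), (1, -3576231559268), (2, 7151448965302), (3, -7191147562298), (4, 3633142131843), (5, -737309623351)], 14336, 15104, 15872, 16384, 4, 2⟩ = true := by
  decide +kernel

theorem l12 : HoldsOn Lq Rq (Trg.right (Trg.left (chamber 1 1))) (Trg.right (Trg.left (chamberNR 1 4))) :=
  HoldsOn.congrT (by decide +kernel) (by decide +kernel)
    (holdsOn_of_leafOK hLne hRne (by norm_num) (by norm_num) hLq (hRqg 5) hNn c12)

theorem c13 : leafOK 295 29 373 (⟨4, -2, -2, 5, -1, -4, 8, -4, -4, 12⟩ : Trg) (⟨-1, 2, -1, -2, 4, -2, -5, 4, 1, 48⟩ : Trg) Lq 12 6 67108864 Rq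
    ⟨[(0, 6366752585545), (1, -41453891773279), (2, 112956689581501), (3, -164716791359906), (4, 135466124097809), (5, -59538806148773), (6, 10919992687868)], 11264, 13696, 16128, 16384, 16, 16⟩
    ⟨[(0, 170477054377), (1, -809233144788), (2, 1610866709958), (3, -1719434126772), (4, 1037098995864), (5, -334929836125), (6, 45221271184)], 17408, 18944, 20480, 16384, 2, 2⟩
    ⟨[(0, 1200602765446), (1, -6796061258345), (2, 16128479819160), (3, -20519672730355), (4, 14748842525768), (5, -5674755589310), (6, 912631576579)], 14336, 15872, 17408, 16384, 4, 8⟩ = true := by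
  decide +kernel

theorem l13 : HoldsOn Lq Rq (Trg.left (Trg.right (chamber 1 1))) (Trg.right (Trg.left (chamberNR 1 4))) :=
  HoldsOn.congrT (by decide +kernel) (by decide +kernel)
    (holdsOn_of_leafOK hLne hRne (by norm_num) (by norm_num) hLq (hRqg 6) hNn c13)

end Vale.Agent.Lib.P154Neg.A4
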