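import Vale.Agent.Lib.P154Neg.A4.RayAll

/-!
# Pieces of the merge inequality
-/

namespace Vale.Agent.Lib.P154Neg.A4

open Vale.Agent.Lib.P154 Vale.Agent.Lib.P154GW Vale.Agent.Lib.P154K Tp

theorem c120 : leafOK 324 33 313 (⟨11, 5, -16, 14, 2, -16, 6, 6, -12, 48⟩ : Trg) (⟨-23, 16, 7, -18, 12, 6, -20, 16, 4, 192⟩ : Trg) Lq 12 4 67108864 Rq
    ⟨[(0, 222255519522), (1, -881061673808), (2, 1318364690714), (3, -881613608369), (4, 222122806691)], 14240, 15120, 16000, 16384, 4, 8⟩
    ⟨[(0, 19462573908), (1, -61915132138), (2, 74364412453), (3, -39924792879), (4, 8077693693)], 18112, 18864, 19616, 16384, 1, 2⟩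
    ⟨[(0, 214126026762), (1, -847577967969), (2, 1266777474043), (3, -846386471373), (4, 213129066483)], 14720, 15168, 15616, 16384, 4, 4⟩ = true := by
  decide +kernel

theorem l120 : HoldsOn Lq Rq (Trg.right (Trg.right (Trg.left (Trg.right (Trg.left (chamber 1 1)))))) (Trg.left (Trg.right (Trg.left (Trg.left (Trg.right (chamberNR 1 4)))))) :=
  HoldsOn.congrT (by decide +kernel) (by decide +kernel)
    (holdsOn_of_leafOK hLne hRne (by norm_num) (by norm_num) hLq (hRqg 4) hNn c120)

theorem c121 : leafOK 328 33 328 (⟨13, 1, -14, 17, -1, -16, 12, 0, -12, 48⟩ : Trg) (⟨-23, 7, 16, -18, 6, 12, -20, 4, 16, 192⟩ : Trg) Lq 12 4 67108864 Rq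
    ⟨[(0, 668236638374), (1, -2928058747477), (2, 4842953235200), (3, -3579807523173), (4, 996980386718)], 12896, 13680, 14464, 16384, 8, 16⟩
    ⟨[(0, 25453052262), (1, -83027310527), (2, 102263749775), (3, -56309194518), (4, 11685616676)], 17920, 18408, 18896, 16384, 1, 1⟩
    ⟨[(0, 55952656443), (1, -196060514881), (2, 259404535312), (3, -153433505681), (4, 34203923966)], 16672, 17136, 17600, 16384, 2, 2⟩ = true := by
  decide +kernel

theorem l121 : HoldsOn Lq Rq (Trg.left (Trg.left (Trg.left (Trg.right (Trg.right (Trg.left (chamber 1 1))))))) (Trg.left (Trg.right (Trg.left (Trg.left (Trg.right (chamberN 1 4)))))) :=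
  HoldsOn.congrT (by decide +kernel) (by decide +kernel)
    (holdsOn_of_leafOK hLne hRne (by norm_num) (by norm_num) hLq (hRqg 4) hNn c121)

end Vale.Agent.Lib.P154Neg.A4
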