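import Vale.Agent.Lib.P154Neg.A4.RayAll

/-!
# Pieces of the merge inequality
-/

namespace Vale.Agent.Lib.P154Neg.A4

open Vale.Agent.Lib.P154 Vale.Agent.Lib.P154GW Vale.Agent.Lib.P154K Tp

theorem c122 : leafOK 329 33 328 (⟨13, 1, -14, 14, 2, -16, 17, -1, -16, 48⟩ : Trg) (⟨-23, 7, 16, -18, 6, 12, -20, 4, 16, 192⟩ : Trg) Lq 12 4 67108864 Rq
    ⟨[(0, 721556424118), (1, -3185580035989), (2, 5309164253919), (3, -3954766590942), (4, 1110020302140)], 12896, 13584, 14272, 16384, 4, 16⟩
    ⟨[(0, 22383563309), (1, -72177720208), (2, 87883585709), (3, -47838796686), (4, 9814731864)], 18208, 18624, 19040, 16384, 1, 1⟩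
    ⟨[(0, 57714868866), (1, -202781177424), (2, 269015106517), (3, -159540899328), (4, 35659202560)], 16576, 17088, 17600, 16384, 2, 4⟩ = true := by
  decide +kernel

theorem l122 : HoldsOn Lq Rq (Trg.right (Trg.left (Trg.left (Trg.right (Trg.right (Trg.left (chamber 1 1))))))) (Trg.left (Trg.right (Trg.left (Trg.left (Trg.right (chamberN 1 4)))))) :=
  HoldsOn.congrT (by decide +kernel) (by decide +kernel)
    (holdsOn_of_leafOK hLne hRne (by norm_num) (by norm_num) hLq (hRqg 4) hNn c122)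

end Vale.Agent.Lib.P154Neg.A4
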