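import Vale.Agent.Lib.P154Neg.A4.RayAll

/-!
# Pieces of the merge inequality
-/

namespace Vale.Agent.Lib.P154Neg.A4

open Vale.Agent.Lib.P154 Vale.Agent.Lib.P154GW Vale.Agent.Lib.P154K Tp

theorem c14 : leafOK 285 29 371 (⟨4, -2, -2, 0, 0, 0, 5, -1, -4, 12⟩ : Trg) (⟨-1, 2, -1, -5, 4, 1, 0, 0, 0, 48⟩ : Trg) Lq 12 6 67108864 Rq
    ⟨[(0, 1711008446654), (1, -9999312213310), (2, 24500275277273), (3, -32182679667552), (4, 23883510514227), (5, -9488431897576), (6, 1575696649148)], 13568, 16384, 16385, 16384, 16, 1⟩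
    ⟨[(0, 396288781334), (1, -2027835740187), (2, 4350082492324), (3, -5002228103008), (4, 3249341877050), (5, -1129742550753), (6, 164160352104)], 16383, 16384, 19712, 16384, 1, 4⟩
    ⟨[(0, 939537705867), (1, -5221145751045), (2, 12172256858351), (3, -15222690011529), (4, 10762047651187), (5, -4075409330480), (6, 645469986513)], 15360, 16384, 16896, 16384, 2, 2⟩ = true := by
  decide +kernel

theorem l14 : HoldsOn Lq Rq (Trg.right (Trg.right (chamber 1 1))) (Trg.left (Trg.left (chamberNR 1 4))) :=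
  HoldsOn.congrT (by decide +kernel) (by decide +kernel)
    (holdsOn_of_leafOK hLne hRne (by norm_num) (by norm_num) hLq (hRqg 6) hNn c14)

theorem c15 : leafOK 286 29 371 (⟨4, -2, -2, 0, 0, 0, 5, -1, -4, 12⟩ : Trg) (⟨-1, 2, -1, -2, 4, -2, -5, 4, 1, 48⟩ : Trg) Lq 12 6 67108864 Rq
    ⟨[(0, 1711008446654), (1, -9999312213310), (2, 24500275277273), (3, -32182679667552), (4, 23883510514227), (5, -9488431897576), (6, 1575696649148)], 13568, 16384, 16385, 16384, 16, 1⟩
    ⟨[(0, 396288781334), (1, -2027835740187), (2, 4350082492324), (3, -5002228103008), (4, 3249341877050), (5, -1129742550753), (6, 164160352104)], 16383, 16384, 19712, 16384, 1, 4⟩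
    ⟨[(0, 1214957392525), (1, -6896703248029), (2, 16418600600253), (3, -20960858058403), (4, 15122769362949), (5, -5842454216018), (6, 943755275587)], 14336, 16384, 16896, 16384, 4, 2⟩ = true := by
  decide +kernel

theorem l15 : HoldsOn Lq Rq (Trg.right (Trg.right (chamber 1 1))) (Trg.right (Trg.left (chamberNR 1 4))) :=
  HoldsOn.congrT (by decide +kernel) (by decide +kernel)
    (holdsOn_of_leafOK hLne hRne (by norm_num) (by norm_num) hLq (hRqg 6) hNn c15)

end Vale.Agent.Lib.P154Neg.A4
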