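import Vale.Agent.Lib.P154Neg.A4.RayAll

/-!
# Pieces of the merge inequality
-/

namespace Vale.Agent.Lib.P154Neg.A4

open Vale.Agent.Lib.P154 Vale.Agent.Lib.P154GW Vale.Agent.Lib.P154K Tp

theorem c16 : leafOK 290 29 372 (⟨4, -2, -2, 0, 0, 0, 5, -1, -4, 12⟩ : Trg) (⟨-4, 2, 2, -5, 4, 1, -8, 4, 4, 48⟩ : Trg) Lq 12 6 67108864 Rq
    ⟨[(0, 3423407158321), (1, -20961732064387), (2, 53706857537988), (3, -73635129190908), (4, 56939603645765), (5, -23531891648061), (6, 4058951670146)], 11264, 16384, 16385, 16384, 16, 1⟩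
    ⟨[(0, 339358568423), (1, -1708280823492), (2, 3603514067833), (3, -4073009535431), (4, 2599500799086), (5, -887635705601), (6, 126619738046)], 16383, 16384, 20480, 16384, 1, 4⟩
    ⟨[(0, 580938609713), (1, -3085659240054), (2, 6873886493857), (3, -8212074367228), (4, 5544544531814), (5, -2004606544692), (6, 303037625454)], 15872, 16384, 18432, 16384, 1, 8⟩ = true := by
  decide +kernel

theorem l16 : HoldsOn Lq Rq (Trg.right (Trg.right (chamber 1 1))) (Trg.left (Trg.right (chamberNR 1 4))) :=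
  HoldsOn.congrT (by decide +kernel) (by decide +kernel)
    (holdsOn_of_leafOK hLne hRne (by norm_num) (by norm_num) hLq (hRqg 6) hNn c16)

theorem c17 : leafOK 285 29 371 (⟨4, -2, -2, 0, 0, 0, 5, -1, -4, 12⟩ : Trg) (⟨-4, 2, 2, 0, 0, 0, -5, 4, 1, 48⟩ : Trg) Lq 12 6 67108864 Rq
    ⟨[(0, 1711008446654), (1, -9999312213310), (2, 24500275277273), (3, -32182679667552), (4, 23883510514227), (5, -9488431897576), (6, 1575696649148)], 13568, 16384, 16385, 16384, 16, 1⟩
    ⟨[(0, 396288781334), (1, -2027835740187), (2, 4350082492324), (3, -5002228103008), (4, 3249341877050), (5, -1129742550753), (6, 164160352104)], 16383, 16384, 19712, 16384, 1, 4⟩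
    ⟨[(0, 734938894651), (1, -3994266545991), (2, 9107077889576), (3, -11138788969439), (4, 7701608420158), (5, -2852321277566), (6, 441818697475)], 15872, 16384, 17408, 16384, 1, 4⟩ = true := by
  decide +kernel

theorem l17 : HoldsOn Lq Rq (Trg.right (Trg.right (chamber 1 1))) (Trg.right (Trg.right (chamberNR 1 4))) :=
  HoldsOn.congrT (by decide +kernel) (by decide +kernel)
    (holdsOn_of_leafOK hLne hRne (by norm_num) (by norm_num) hLq (hRqg 6) hNn c17)

end Vale.Agent.Lib.P154Neg.A4
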