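import Vale.Agent.Lib.P154Neg.A4.RayAll

/-!
# Pieces of the merge inequality
-/

namespace Vale.Agent.Lib.P154Neg.A4

open Vale.Agent.Lib.P154 Vale.Agent.Lib.P154GW Vale.Agent.Lib.P154K Tp

theorem c18 : leafOK 310 30 372 (⟨4, -2, -2, 5, -1, -4, 8, -4, -4, 12⟩ : Trg) (⟨-5, 1, 4, -8, 4, 4, 0, 0, 0, 96⟩ : Trg) Lq 12 6 67108864 Rq
    ⟨[(0, 2473306009184), (1, -14842052725739), (2, 37307068747001), (3, -50229121692848), (4, 38175023081360), (5, -15519387647901), (6, 2635231337807)], 12288, 16384, 16385, 16384, 16, 1⟩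
    ⟨[(0, 519851853062), (1, -2734577592962), (2, 6033495464624), (3, -7139629955417), (4, 4775042022336), (5, -1710258339791), (6, 256143657012)], 16383, 16384, 18432, 16384, 1, 8⟩
    ⟨[(0, 519851853062), (1, -2734577592962), (2, 6033495464624), (3, -7139629955417), (4, 4775042022336), (5, -1710258339791), (6, 256143657012)], 16383, 16384, 18432, 16384, 1, 8⟩ = true := by
  decide +kernel

theorem l18 : HoldsOn Lq Rq (Trg.left (Trg.right (chamber 1 1))) (Trg.left (Trg.right (Trg.right (chamberN 1 4)))) :=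
  HoldsOn.congrT (by decide +kernel) (by decide +kernel)
    (holdsOn_of_leafOK hLne hRne (by norm_num) (by norm_num) hLq (hRqg 6) hNn c18)

theorem c19 : leafOK 316 30 372 (⟨4, -2, -2, 5, -1, -4, 8, -4, -4, 12⟩ : Trg) (⟨-5, 1, 4, -10, 2, 8, -8, 4, 4, 96⟩ : Trg) Lq 12 6 67108864 Rq
    ⟨[(0, 9471766034475), (1, -64293994321878), (2, 182796637288074), (3, -278351753625781), (4, 239234991616596), (5, -109966217202787), (6, 21108775211048)], 11264, 13184, 15104, 16384, 16, 16⟩
    ⟨[(0, 395444685610), (1, -2030403651715), (2, 4373205693260), (3, -5052419128201), (4, 3299504792964), (5, -1154084159656), (6, 168818875517)], 16640, 17536, 18432, 16384, 1, 1⟩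
    ⟨[(0, 199068068155), (1, -957088338109), (2, 1929242160465), (3, -2084818919443), (4, 1272818312274), (5, -415979665253), (6, 56825428392)], 16896, 18688, 20480, 16384, 2, 2⟩ = true := by
  decide +kernel

theorem l19 : HoldsOn Lq Rq (Trg.left (Trg.right (chamber 1 1))) (Trg.right (Trg.right (Trg.right (chamberN 1 4)))) :=
  HoldsOn.congrT (by decide +kernel) (by decide +kernel)
    (holdsOn_of_leafOK hLne hRne (by norm_num) (by norm_num) hLq (hRqg 6) hNn c19)

end Vale.Agent.Lib.P154Neg.A4
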