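import Vale.Agent.Lib.P154Neg.A4.Ray0
import Vale.Agent.Lib.P154Neg.A4.Ray1
import Vale.Agent.Lib.P154Neg.A4.Ray2
import Vale.Agent.Lib.P154Neg.A4.Ray3
import Vale.Agent.Lib.P154Neg.A4.Ray4
import Vale.Agent.Lib.P154Neg.A4.Ray5
import Vale.Agent.Lib.P154Neg.A4.Ray6
import Vale.Agent.Lib.P154Neg.A4.Ray7

/-!
# The ray inequality for the potential
-/

namespace Vale.Agent.Lib.P154Neg.A4

open Vale.Agent.Lib.P154 Vale.Agent.Lib.P154GW Vale.Agent.Lib.P154K Tp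

theorem cC : check 66 12 0 (potE Lc 12 (chamber 1 1).den (chamber 1 1).exA) = true := by
  decide +kernel

lemma hRay : RayOn Lq (chamber 1 1) (((-256 : ℤ) : ℝ) / ((1024 : ℤ) : ℝ)) (((1024 : ℤ) : ℝ) / ((1024 : ℤ) : ℝ)) :=
  (RayOn.splitT (by decide) (RayOn.splitM rayL0 (RayOn.splitM (RayOn.splitM (RayOn.splitM rayL1 (RayOn.splitM (RayOn.splitM rayL2 rayL3) (RayOn.splitM rayL4 rayL5))) (RayOn.splitM (RayOn.splitM (RayOn.splitM rayL6 rayL7) (RayOn.splitM rayL8 rayL9)) (RayOn.splitM (RayOn.splitM rayL10 rayL11) (RayOn.splitM rayL12 rayL13)))) (RayOn.splitM (RayOn.splitM (RayOn.splitM (RayOn.splitM rayL14 rayL15) (RayOn.splitM rayL16 rayL17)) (RayOn.splitM (RayOn.splitM rayL18 rayL19) (RayOn.splitM rayL20 rayL21))) (RayOn.splitM (RayOn.splitM (RayOn.splitM rayL22 rayL23) (RayOn.splitM rayL24 rayL25)) (RayOn.splitM (RayOn.splitM rayL26 rayL27) (RayOn.splitM rayL28 rayL29)))))) rayL30)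

lemma hall (c : Tp) (hc : InSx 1 c) (μ : ℝ) (h0 : -(((1 : ℕ) : ℝ) / ((4 : ℕ) : ℝ)) ≤ μ) (h1 : μ ≤ 1) :
    0 ≤ hVal Lq c μ ∧ potL Lq (scale μ c) ≤ μ ^ 2 * potL Lq c :=
  ray_all hLq4 hRay c hc μ (by norm_num at h0 ⊢; linarith) (by norm_num; linarith)

lemma hG (c : Tp) (hc : InSx 1 c) : ((16384 : ℝ)) * p2T c ≤ potL Lq c := by
  have h := (hall c hc 0 (by norm_num) (by norm_num)).1
  have e : hVal Lq c 0 = potL Lq c - ((16384 : ℝ)) * p2T c := by
    simp only [hVal, potL, Lq, List.map_cons, List.map_nil, List.sum_cons, List.sum_nil]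
    norm_num
    try ring
  linarith

lemma hNn (c : Tp) (hc : InSx 1 c) : 0 ≤ potL Lq c := by
  have := hG c hc
  have h2 := p2T_nonneg c
  nlinarith

lemma hBd (c : Tp) (hc : InSx 1 c) : potL Lq c ≤ (16384 : ℝ) := by
  have h := potL_nonneg_of_check (L := Lc) (by simp [Lc]) hLc cC c hc
  have e : potL Lc c = (16384 : ℝ) - potL Lq c := by
    simp only [potL, Lc, Lq, List.map_cons, List.map_nil, List.sum_cons, List.sum_nil]
    norm_num
    try ring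
  rw [e] at h
  linarith

end Vale.Agent.Lib.P154Neg.A4
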